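import Vale.Agent.P088.R2.H558.Est

/-!
# P088, row EQC: algebra at a point, the Hessian forms `Gx`, `Gy`
-/

open MeasureTheory Set Filter
open scoped ContDiff Matrix Topology

noncomputable section

namespace Vale.Agent.P088.HY.H856

open Vale.Agent.P088.LR

variable {n : ℕ}

/-- The scalar product. -/
def ip (v w : Fin n → ℝ) : ℝ := ∑ i, v i * w i

/-- `s v`. -/
def mv (s : Fin n → Fin n → ℝ) (v : Fin n → ℝ) (j : Fin n) : ℝ := ∑ i, s i j * v i

lemma ip_comm (v w : Fin n → ℝ) : ip v w = ip w v := by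
  unfold ip
  exact Finset.sum_congr rfl fun i _ => mul_comm _ _

lemma sum_mv (s : Fin n → Fin n → ℝ) (v X : Fin n → ℝ) :
    ∑ i, ∑ j, s i j * v i * X j = ip (mv s v) X := by
  unfold ip mv
  rw [Finset.sum_comm]
  exact Finset.sum_congr rfl fun j _ => by rw [Finset.sum_mul]

lemma mv_symm {s : Fin n → Fin n → ℝ} (hs : ∀ i j, s i j = s j i) (v w : Fin n → ℝ) :
    ip (mv s v) w = ip v (mv s w) := by
  unfold ip mv
  simp only [Finset.sum_mul, Finset.mul_sum]
  rw [Finset.sum_comm]
  refine Finset.sum_congr rfl fun i _ => Finset.sum_congr rfl fun j _ => ?_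
  rw [hs i j]
  ring

/-- `∑_{kl} d_kl v_k w_l`. -/
def bf (d : Fin n → Fin n → ℝ) (v w : Fin n → ℝ) : ℝ := ∑ k, ∑ l, d k l * v k * w l

/-- The Hessian form, algebraically. -/
def HG (s : Fin n → Fin n → ℝ) (ds : Fin n → Fin n → Fin n → ℝ) (w : ℝ) (x al xi et : Fin n → ℝ) :
    ℝ :=
  2 * w * ip (mv s xi) (mv s et) + 2 * ip x (mv s al) * ip (mv s xi) et
    + ∑ j, (mv s xi j * bf (ds j) al et + mv s et j * bf (ds j) al xi - mv s al j * bf (ds j) xi et)

lemma inner_eq {s : Fin n → Fin n → ℝ} (hs : ∀ i j, s i j = s j i)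
    (d : Fin n → Fin n → ℝ) (al et a H : Fin n → ℝ) :
    ∑ k, ∑ l, (d k l * al k * et l + s k l * a k * et l + s k l * al k * H l) =
      bf d al et + ip a (mv s et) + ip (mv s al) H := by
  have h1 : ∑ k, ∑ l, s k l * a k * et l = ip a (mv s et) := by
    rw [sum_mv, mv_symm hs]
  have h2 : ∑ k, ∑ l, s k l * al k * H l = ip (mv s al) H := sum_mv _ _ _
  rw [← h1, ← h2]
  unfold bf
  simp only [Finset.sum_add_distrib]

/-- Second order terms. -/
lemma second_eq {x p q et : Fin n → ℝ} {H : Fin n → Fin n → ℝ}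
    (hh : ∀ j l, H j l = H l j + x l * et j - x j * et l) :
    ∑ j, p j * ip q (H j) - ∑ j, q j * ip p (H j) = ip x q * ip p et - ip x p * ip q et := by
  have h1 : ∑ j, q j * ip p (H j) = ∑ j, ∑ l, q l * (p j * H l j) := by
    unfold ip
    simp only [Finset.mul_sum]
    rw [Finset.sum_comm]
  have h2 : ip x q * ip p et = ∑ j, ∑ l, p j * et j * (x l * q l) := by
    unfold ip
    rw [mul_comm, Finset.sum_mul_sum]
  have h3 : ip x p * ip q et = ∑ j, ∑ l, x j * p j * (q l * et l) := by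
    unfold ip
    rw [Finset.sum_mul_sum]
  rw [h1, h2, h3]
  unfold ip
  simp only [Finset.mul_sum, ← Finset.sum_sub_distrib]
  refine Finset.sum_congr rfl fun j _ => Finset.sum_congr rfl fun l _ => ?_
  rw [hh j l]
  ring

lemma first_eq {w : ℝ} {x al p q : Fin n → ℝ} {a : Fin n → Fin n → ℝ}
    (ha : ∀ j k, a j k = kd j k * w + x k * al j) :
    ∑ j, p j * ip (a j) q = w * ip p q + ip p al * ip x q := by
  have h1 : ip p al * ip x q = ∑ j, ∑ k, p j * al j * (x k * q k) := by
    unfold ip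
    rw [Finset.sum_mul_sum]
  have h2 : w * ip p q = ∑ j, ∑ k, p j * (kd j k * (w * q k)) := by
    unfold ip
    rw [Finset.mul_sum]
    refine Finset.sum_congr rfl fun j _ => ?_
    rw [← Finset.mul_sum, sum_kd j fun k => w * q k]
    ring
  rw [h1, h2]
  unfold ip
  simp only [Finset.mul_sum, ← Finset.sum_add_distrib]
  refine Finset.sum_congr rfl fun j _ => Finset.sum_congr rfl fun k _ => ?_
  rw [ha j k]
  ring

lemma alg_G {s : Fin n → Fin n → ℝ} (hs : ∀ i j, s i j = s j i)
    {ds : Fin n → Fin n → Fin n → ℝ} {w : ℝ} {x al xi et : Fin n → ℝ}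
    {a Hf Hh : Fin n → Fin n → ℝ} (ha : ∀ j k, a j k = kd j k * w + x k * al j)
    (hf : ∀ j l, Hf j l = Hf l j + x l * xi j - x j * xi l)
    (hh : ∀ j l, Hh j l = Hh l j + x l * et j - x j * et l) :
    ∑ i, ∑ j, s i j * xi i *
        (∑ k, ∑ l, (ds j k l * al k * et l + s k l * a j k * et l + s k l * al k * Hh j l))
      + ∑ i, ∑ j, s i j * et i *
        (∑ k, ∑ l, (ds j k l * al k * xi l + s k l * a j k * xi l + s k l * al k * Hf j l))
      - ∑ i, ∑ j, s i j * al i *
        (∑ k, ∑ l, (ds j k l * xi k * et l + s k l * Hf j k * et l + s k l * xi k * Hh j l)) =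
    HG s ds w x al xi et := by
  simp only [inner_eq hs]
  rw [sum_mv, sum_mv, sum_mv]
  have e1 : ip (mv s xi) (fun j => bf (ds j) al et + ip (a j) (mv s et) + ip (mv s al) (Hh j)) =
      ∑ j, mv s xi j * bf (ds j) al et + ∑ j, mv s xi j * ip (a j) (mv s et)
        + ∑ j, mv s xi j * ip (mv s al) (Hh j) := by
    unfold ip
    simp only [mul_add, Finset.sum_add_distrib]
  have e2 : ip (mv s et) (fun j => bf (ds j) al xi + ip (a j) (mv s xi) + ip (mv s al) (Hf j)) =
      ∑ j, mv s et j * bf (ds j) al xi + ∑ j, mv s et j * ip (a j) (mv s xi)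
        + ∑ j, mv s et j * ip (mv s al) (Hf j) := by
    unfold ip
    simp only [mul_add, Finset.sum_add_distrib]
  have e3 : ip (mv s al) (fun j => bf (ds j) xi et + ip (Hf j) (mv s et) + ip (mv s xi) (Hh j)) =
      ∑ j, mv s al j * bf (ds j) xi et + ∑ j, mv s al j * ip (mv s et) (Hf j)
        + ∑ j, mv s al j * ip (mv s xi) (Hh j) := by
    unfold ip
    simp only [mul_add, Finset.sum_add_distrib]
    congr 2
    refine Finset.sum_congr rfl fun j _ => ?_
    congr 1
    exact Finset.sum_congr rfl fun k _ => mul_comm _ _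
  rw [e1, e2, e3, first_eq ha, first_eq ha]
  have s1 := second_eq (p := mv s xi) (q := mv s al) hh
  have s2 := second_eq (p := mv s et) (q := mv s al) hf
  have c1 : ip (mv s al) et = ip (mv s et) al := by rw [mv_symm hs, ip_comm]
  have c2 : ip (mv s al) xi = ip (mv s xi) al := by rw [mv_symm hs, ip_comm]
  have c3 : ip (mv s et) xi = ip (mv s xi) et := by rw [mv_symm hs, ip_comm]
  have c4 : ip (mv s et) (mv s xi) = ip (mv s xi) (mv s et) := ip_comm _ _
  rw [c1] at s1
  rw [c2, c3] at s2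
  unfold HG
  simp only [Finset.sum_add_distrib, Finset.sum_sub_distrib]
  rw [c4]
  linear_combination s1 + s2

end Vale.Agent.P088.HY.H856
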