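import Vale.Agent.P088.R2.H856.Tri

/-!
# P088, row EQC: norms, pairs of near numbers, the coefficients of the error form
-/

open MeasureTheory Set Filter
open scoped ContDiff Matrix Topology

noncomputable section

namespace Vale.Agent.P088.HY.H856

open Vale.Agent.P088.LR

variable {n : ℕ}

/-! ### Euclidean length -/

/-- Euclidean length. -/
def nr (v : Fin n → ℝ) : ℝ := √(ip v v)

lemma ip_self_nonneg (v : Fin n → ℝ) : 0 ≤ ip v v :=
  Finset.sum_nonneg fun _ _ => mul_self_nonneg _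

lemma nr_nonneg (v : Fin n → ℝ) : 0 ≤ nr v := Real.sqrt_nonneg _

lemma nr_sq (v : Fin n → ℝ) : nr v ^ 2 = ip v v := Real.sq_sqrt (ip_self_nonneg v)

lemma abs_ip_le (v w : Fin n → ℝ) : |ip v w| ≤ nr v * nr w := by
  apply abs_le_of_sq_le_sq _ (mul_nonneg (nr_nonneg v) (nr_nonneg w))
  rw [mul_pow, nr_sq, nr_sq]
  have h := Finset.sum_mul_sq_le_sq_mul_sq Finset.univ v w
  simp only [pow_two] at h ⊢
  exact h

lemma ip_add_left (u v w : Fin n → ℝ) : ip (u + v) w = ip u w + ip v w := by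
  unfold ip
  rw [← Finset.sum_add_distrib]
  exact Finset.sum_congr rfl fun i _ => by simp only [Pi.add_apply]; ring

lemma ip_add_right (u v w : Fin n → ℝ) : ip u (v + w) = ip u v + ip u w := by
  rw [ip_comm, ip_add_left, ip_comm v, ip_comm w]

lemma ip_sub_left (u v w : Fin n → ℝ) : ip (u - v) w = ip u w - ip v w := by
  unfold ip
  rw [← Finset.sum_sub_distrib]
  exact Finset.sum_congr rfl fun i _ => by simp only [Pi.sub_apply]; ring

lemma ip_sub_right (u v w : Fin n → ℝ) : ip u (v - w) = ip u v - ip u w := by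
  rw [ip_comm, ip_sub_left, ip_comm v, ip_comm w]

lemma nr_add_le (v w : Fin n → ℝ) : nr (v + w) ≤ nr v + nr w := by
  apply abs_le_of_sq_le_sq' _ (add_nonneg (nr_nonneg v) (nr_nonneg w)) |>.2
  rw [nr_sq, add_sq, nr_sq, nr_sq, ip_add_left, ip_add_right, ip_add_right, ip_comm w v]
  have := (abs_le.1 (abs_ip_le v w)).2
  linarith

lemma abs_le_nr (v : Fin n → ℝ) (i : Fin n) : |v i| ≤ nr v := by
  apply Real.abs_le_sqrt
  unfold ip
  rw [pow_two]
  exact Finset.single_le_sum (f := fun i => v i * v i) (fun i _ => mul_self_nonneg _)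
    (Finset.mem_univ i)

lemma nr_le_of (v : Fin n → ℝ) {b : ℝ} (hb : 0 ≤ b) (h : ∀ i, |v i| ≤ b) : nr v ≤ n * b := by
  have h0 : (0 : ℝ) ≤ n := Nat.cast_nonneg n
  apply Real.sqrt_le_iff.2 ⟨mul_nonneg h0 hb, ?_⟩
  have h1 : ip v v ≤ ∑ _i : Fin n, b ^ 2 := by
    unfold ip
    refine Finset.sum_le_sum fun i _ => ?_
    have := h i
    have h2 := abs_nonneg (v i)
    rw [← abs_mul_abs_self, pow_two]
    exact mul_self_le_mul_self h2 this
  rw [Finset.sum_const, Finset.card_univ, Fintype.card_fin, nsmul_eq_mul] at h1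
  rcases Nat.eq_zero_or_pos n with h2 | h2
  · subst h2
    simpa using h1
  · have h3 : (1 : ℝ) ≤ n := by exact_mod_cast h2
    have h4 : (n : ℝ) * b ^ 2 ≤ n * (n * b ^ 2) := by
      have : b ^ 2 ≤ n * b ^ 2 := le_mul_of_one_le_left (sq_nonneg b) h3
      exact mul_le_mul_of_nonneg_left this h0
    calc ip v v ≤ n * b ^ 2 := h1
      _ ≤ n * (n * b ^ 2) := h4
      _ = (n * b) ^ 2 := by ring

lemma nr_mv_le {s : Fin n → Fin n → ℝ} {b : ℝ} (hb : 0 ≤ b) (h : ∀ i j, |s i j| ≤ b)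
    (v : Fin n → ℝ) : nr (mv s v) ≤ (n : ℝ) ^ 2 * b * nr v := by
  have h0 : (0 : ℝ) ≤ n := Nat.cast_nonneg n
  have h1 := nr_nonneg v
  have key : ∀ j, |mv s v j| ≤ n * (b * nr v) := by
    intro j
    unfold mv
    calc |∑ i, s i j * v i| ≤ ∑ i, |s i j * v i| := Finset.abs_sum_le_sum_abs _ _
      _ ≤ ∑ _i : Fin n, b * nr v := Finset.sum_le_sum fun i _ => by
          rw [abs_mul]
          exact mul_le_mul (h i j) (abs_le_nr v i) (abs_nonneg _) hb
      _ = n * (b * nr v) := by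
          rw [Finset.sum_const, Finset.card_univ, Fintype.card_fin, nsmul_eq_mul]
  calc nr (mv s v) ≤ n * (n * (b * nr v)) := nr_le_of _ (by positivity) key
    _ = (n : ℝ) ^ 2 * b * nr v := by ring

lemma abs_tri_le {K : Fin n → Fin n → Fin n → ℝ} {b : ℝ} (hb : 0 ≤ b) (h : ∀ i j k, |K i j k| ≤ b)
    (al xi et : Fin n → ℝ) : |tri K al xi et| ≤ (n : ℝ) ^ 3 * b * (nr al * nr xi * nr et) := by
  have h1 := nr_nonneg al
  have h2 := nr_nonneg xi
  have h3 := nr_nonneg et
  have key : ∀ a b' c, |K a b' c * al a * xi b' * et c| ≤ b * (nr al * nr xi * nr et) := by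
    intro a b' c
    rw [abs_mul, abs_mul, abs_mul]
    calc |K a b' c| * |al a| * |xi b'| * |et c| = |K a b' c| * (|al a| * |xi b'| * |et c|) := by
          ring
      _ ≤ b * (nr al * nr xi * nr et) := by
          apply mul_le_mul (h a b' c) _ (by positivity) hb
          apply mul_le_mul _ (abs_le_nr et c) (abs_nonneg _) (by positivity)
          exact mul_le_mul (abs_le_nr al a) (abs_le_nr xi b') (abs_nonneg _) h1
  unfold tri
  calc |∑ a, ∑ b', ∑ c, K a b' c * al a * xi b' * et c|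
      ≤ ∑ a, |∑ b', ∑ c, K a b' c * al a * xi b' * et c| := Finset.abs_sum_le_sum_abs _ _
    _ ≤ ∑ a, ∑ b', |∑ c, K a b' c * al a * xi b' * et c| :=
        Finset.sum_le_sum fun a _ => Finset.abs_sum_le_sum_abs _ _
    _ ≤ ∑ a, ∑ b', ∑ c, |K a b' c * al a * xi b' * et c| :=
        Finset.sum_le_sum fun a _ => Finset.sum_le_sum fun b' _ => Finset.abs_sum_le_sum_abs _ _
    _ ≤ ∑ _a : Fin n, ∑ _b : Fin n, ∑ _c : Fin n, b * (nr al * nr xi * nr et) :=
        Finset.sum_le_sum fun a _ => Finset.sum_le_sum fun b' _ =>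
          Finset.sum_le_sum fun c _ => key a b' c
    _ = (n : ℝ) ^ 3 * b * (nr al * nr xi * nr et) := by
        simp only [Finset.sum_const, Finset.card_univ, Fintype.card_fin, nsmul_eq_mul]
        ring

lemma tri_add1 (K : Fin n → Fin n → Fin n → ℝ) (a a' xi et : Fin n → ℝ) :
    tri K (a + a') xi et = tri K a xi et + tri K a' xi et := by
  unfold tri
  simp only [← Finset.sum_add_distrib]
  refine Finset.sum_congr rfl fun a _ => Finset.sum_congr rfl fun b _ =>
    Finset.sum_congr rfl fun c _ => ?_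
  simp only [Pi.add_apply]
  ring

lemma tri_add2 (K : Fin n → Fin n → Fin n → ℝ) (a xi xi' et : Fin n → ℝ) :
    tri K a (xi + xi') et = tri K a xi et + tri K a xi' et := by
  unfold tri
  simp only [← Finset.sum_add_distrib]
  refine Finset.sum_congr rfl fun a _ => Finset.sum_congr rfl fun b _ =>
    Finset.sum_congr rfl fun c _ => ?_
  simp only [Pi.add_apply]
  ring

lemma tri_add3 (K : Fin n → Fin n → Fin n → ℝ) (a xi et et' : Fin n → ℝ) :
    tri K a xi (et + et') = tri K a xi et + tri K a xi et' := by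
  unfold tri
  simp only [← Finset.sum_add_distrib]
  refine Finset.sum_congr rfl fun a _ => Finset.sum_congr rfl fun b _ =>
    Finset.sum_congr rfl fun c _ => ?_
  simp only [Pi.add_apply]
  ring

/-- The difference structure of the error forms at near points. -/
lemma tri_pair_le {K1 K2 : Fin n → Fin n → Fin n → ℝ} {b d : ℝ} (hb : 0 ≤ b) (hd : 0 ≤ d)
    (h1 : ∀ i j k, |K1 i j k| ≤ b) (h2 : ∀ i j k, |K2 i j k - K1 i j k| ≤ d)
    (al be xi et : Fin n → ℝ) :
    |tri K1 al xi xi + tri K2 be et et| ≤ (n : ℝ) ^ 3 * (b * (nr (al + be) * nr xi ^ 2)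
      + d * (nr be * nr et ^ 2) + b * (nr be * (nr xi + nr et) * nr (xi + et))) := by
  have e1 : tri K1 al xi xi + tri K2 be et et = tri K1 (al + be) xi xi
      + tri (fun i j k => K2 i j k - K1 i j k) be et et
      + (tri K1 be et (xi + et) - tri K1 be (xi + et) xi) := by
    rw [tri_add1, tri_sub, tri_add3, tri_add2]
    ring
  have b1 := abs_tri_le hb h1 (al + be) xi xi
  have b2 := abs_tri_le hd h2 be et et
  have b3 := abs_tri_le hb h1 be et (xi + et)
  have b4 := abs_tri_le hb h1 be (xi + et) xi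
  rw [e1]
  calc _ ≤ |tri K1 (al + be) xi xi| + |tri (fun i j k => K2 i j k - K1 i j k) be et et|
        + (|tri K1 be et (xi + et)| + |tri K1 be (xi + et) xi|) := by
        refine (abs_add_le _ _).trans (add_le_add (abs_add_le _ _) ?_)
        exact abs_sub _ _
    _ ≤ _ := by
        refine (add_le_add (add_le_add b1 b2) (add_le_add b3 b4)).trans (le_of_eq ?_)
        ring

/-! ### Pairs of near numbers -/

/-- Both are bounded by `M`, the difference is bounded by `N`. -/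
def Nr (M N p q : ℝ) : Prop := |p| ≤ M ∧ |q| ≤ M ∧ |p - q| ≤ N

lemma Nr.M0 {M N p q : ℝ} (h : Nr M N p q) : 0 ≤ M := (abs_nonneg _).trans h.1

lemma Nr.N0 {M N p q : ℝ} (h : Nr M N p q) : 0 ≤ N := (abs_nonneg _).trans h.2.2

lemma Nr.mono {M N M' N' p q : ℝ} (h : Nr M N p q) (h1 : M ≤ M') (h2 : N ≤ N') :
    Nr M' N' p q := ⟨h.1.trans h1, h.2.1.trans h1, h.2.2.trans h2⟩

lemma Nr.add {M N M' N' p q p' q' : ℝ} (h : Nr M N p q) (h' : Nr M' N' p' q') :
    Nr (M + M') (N + N') (p + p') (q + q') := by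
  refine ⟨(abs_add_le _ _).trans (add_le_add h.1 h'.1),
    (abs_add_le _ _).trans (add_le_add h.2.1 h'.2.1), ?_⟩
  rw [show p + p' - (q + q') = (p - q) + (p' - q') by ring]
  exact (abs_add_le _ _).trans (add_le_add h.2.2 h'.2.2)

lemma Nr.sub {M N M' N' p q p' q' : ℝ} (h : Nr M N p q) (h' : Nr M' N' p' q') :
    Nr (M + M') (N + N') (p - p') (q - q') := by
  refine ⟨(abs_sub _ _).trans (add_le_add h.1 h'.1),
    (abs_sub _ _).trans (add_le_add h.2.1 h'.2.1), ?_⟩
  rw [show p - p' - (q - q') = (p - q) - (p' - q') by ring]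
  exact (abs_sub _ _).trans (add_le_add h.2.2 h'.2.2)

lemma Nr.cmul {M N p q : ℝ} (h : Nr M N p q) {c : ℝ} (hc : 0 ≤ c) :
    Nr (c * M) (c * N) (c * p) (c * q) := by
  refine ⟨?_, ?_, ?_⟩
  · rw [abs_mul, abs_of_nonneg hc]; exact mul_le_mul_of_nonneg_left h.1 hc
  · rw [abs_mul, abs_of_nonneg hc]; exact mul_le_mul_of_nonneg_left h.2.1 hc
  · rw [← mul_sub, abs_mul, abs_of_nonneg hc]; exact mul_le_mul_of_nonneg_left h.2.2 hc

lemma Nr.mul {M N M' N' p q p' q' : ℝ} (h : Nr M N p q) (h' : Nr M' N' p' q') :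
    Nr (M * M') (M * N' + N * M') (p * p') (q * q') := by
  refine ⟨?_, ?_, ?_⟩
  · rw [abs_mul]; exact mul_le_mul h.1 h'.1 (abs_nonneg _) h.M0
  · rw [abs_mul]; exact mul_le_mul h.2.1 h'.2.1 (abs_nonneg _) h.M0
  · rw [show p * p' - q * q' = p * (p' - q') + (p - q) * q' by ring]
    refine (abs_add_le _ _).trans (add_le_add ?_ ?_)
    · rw [abs_mul]; exact mul_le_mul h.1 h'.2.2 (abs_nonneg _) h.M0
    · rw [abs_mul]; exact mul_le_mul h.2.2 h'.2.1 (abs_nonneg _) h.N0

lemma Nr.sum {M N : ℝ} {p q : Fin n → ℝ} (h : ∀ j, Nr M N (p j) (q j)) :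
    Nr (n * M) (n * N) (∑ j, p j) (∑ j, q j) := by
  refine ⟨?_, ?_, ?_⟩
  · calc |∑ j, p j| ≤ ∑ j, |p j| := Finset.abs_sum_le_sum_abs _ _
      _ ≤ ∑ _j : Fin n, M := Finset.sum_le_sum fun j _ => (h j).1
      _ = n * M := by rw [Finset.sum_const, Finset.card_univ, Fintype.card_fin, nsmul_eq_mul]
  · calc |∑ j, q j| ≤ ∑ j, |q j| := Finset.abs_sum_le_sum_abs _ _
      _ ≤ ∑ _j : Fin n, M := Finset.sum_le_sum fun j _ => (h j).2.1
      _ = n * M := by rw [Finset.sum_const, Finset.card_univ, Fintype.card_fin, nsmul_eq_mul]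
  · rw [← Finset.sum_sub_distrib]
    calc |∑ j, (p j - q j)| ≤ ∑ j, |p j - q j| := Finset.abs_sum_le_sum_abs _ _
      _ ≤ ∑ _j : Fin n, N := Finset.sum_le_sum fun j _ => (h j).2.2
      _ = n * N := by rw [Finset.sum_const, Finset.card_univ, Fintype.card_fin, nsmul_eq_mul]

lemma Nr.const (c : ℝ) {M : ℝ} (h : |c| ≤ M) : Nr M 0 c c := ⟨h, h, by simp⟩

/-- The coefficients in terms of `σ = s - 1`. -/
lemma KK_eq (s : Fin n → Fin n → ℝ) (ds : Fin n → Fin n → Fin n → ℝ) (x : Fin n → ℝ)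
    (sg : Fin n → Fin n → ℝ) (h : ∀ i j, s i j = kd i j + sg i j) (a b c : Fin n) :
    KK s ds x a b c = 2 * ((∑ j, x j * sg a j) * (kd b c + sg b c))
      - 2 * (x a * (sg c b + ∑ j, sg b j * sg c j))
      + ((ds b a c + ∑ j, sg b j * ds j a c) + (ds c a b + ∑ j, sg c j * ds j a b)
      - (ds a b c + ∑ j, sg a j * ds j b c)) := by
  have e1 : ∑ j, s b j * s c j = kd b c + sg b c + sg c b + ∑ j, sg b j * sg c j := by
    have : ∀ j, s b j * s c j = kd b j * kd c j + (kd c j * sg b j + kd b j * sg c j)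
        + sg b j * sg c j := by
      intro j; rw [h, h]; ring
    simp only [this, Finset.sum_add_distrib]
    rw [sum_kd b fun j => kd c j, sum_kd c fun j => sg b j, sum_kd b fun j => sg c j, kd_comm c b]
    ring
  have e2 : ∑ j, x j * s a j = x a + ∑ j, x j * sg a j := by
    have : ∀ j, x j * s a j = kd a j * x j + x j * sg a j := by
      intro j; rw [h]; ring
    simp only [this, Finset.sum_add_distrib]
    rw [sum_kd a fun j => x j]
  have e3 : ∀ b' (w : Fin n → ℝ), ∑ j, s b' j * w j = w b' + ∑ j, sg b' j * w j := by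
    intro b' w
    have : ∀ j, s b' j * w j = kd b' j * w j + sg b' j * w j := by
      intro j; rw [h]; ring
    simp only [this, Finset.sum_add_distrib]
    rw [sum_kd b' fun j => w j]
  unfold KK
  rw [e1, e2, e3 b fun j => ds j a c, e3 c fun j => ds j a b, e3 a fun j => ds j b c, h b c]
  ring

/-- Bounds of the coefficients of the error form at near points. -/
lemma KK_near {ε D ρ : ℝ} (h0 : 0 ≤ ε) (h1 : ε ≤ 1) (hρ : ε * ρ ≤ D) (hr : 0 ≤ ρ)
    {s1 s2 : Fin n → Fin n → ℝ} {ds1 ds2 : Fin n → Fin n → Fin n → ℝ} {x y : Fin n → ℝ}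
    (hs : ∀ i j, Nr ε D (s1 i j - kd i j) (s2 i j - kd i j))
    (hd : ∀ i j k, Nr ε (2 * D) (ds1 i j k) (ds2 i j k)) (hx : ∀ i, Nr 1 ρ (x i) (y i))
    (a b c : Fin n) :
    Nr ((5 + 9 * n) * ε) ((10 + 25 * n) * D) (KK s1 ds1 x a b c) (KK s2 ds2 y a b c) := by
  have hn : (0 : ℝ) ≤ n := Nat.cast_nonneg n
  have hD : 0 ≤ D := le_trans (mul_nonneg h0 hr) hρ
  have hee : ε * ε ≤ ε := mul_le_of_le_one_right h0 h1
  have heD : ε * D ≤ D := mul_le_of_le_one_left hD h1
  rw [KK_eq s1 ds1 x (fun i j => s1 i j - kd i j) (fun i j => by ring),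
    KK_eq s2 ds2 y (fun i j => s2 i j - kd i j) (fun i j => by ring)]
  -- `∑ x_j σ_aj`
  have n1 : Nr (n * ε) (n * (2 * D)) (∑ j, x j * (s1 a j - kd a j))
      (∑ j, y j * (s2 a j - kd a j)) :=
    Nr.sum fun j => ((hx j).mul (hs a j)).mono (by linarith) (by linarith)
  have n2 : Nr 2 D (kd b c + (s1 b c - kd b c)) (kd b c + (s2 b c - kd b c)) := by
    have hk : |kd b c| ≤ 1 := by
      unfold kd; split_ifs <;> simp
    exact ((Nr.const _ hk).add (hs b c)).mono (by linarith) (by linarith)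
  have n3 := (n1.mul n2).cmul (c := 2) (by norm_num)
  have n4 : Nr (n * ε) (n * (2 * D)) (∑ j, (s1 b j - kd b j) * (s1 c j - kd c j))
      (∑ j, (s2 b j - kd b j) * (s2 c j - kd c j)) :=
    Nr.sum fun j => ((hs b j).mul (hs c j)).mono (by linarith) (by linarith)
  have n5 := (((hx a).mul ((hs c b).add n4))).cmul (c := 2) (by norm_num)
  have n6 : ∀ a b c, Nr (n * ε) (n * (3 * D)) (∑ j, (s1 a j - kd a j) * ds1 j b c)
      (∑ j, (s2 a j - kd a j) * ds2 j b c) := fun a b c =>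
    Nr.sum fun j => ((hs a j).mul (hd j b c)).mono (by linarith) (by linarith)
  have n7 := (((hd b a c).add (n6 b a c)).add ((hd c a b).add (n6 c a b))).sub
    ((hd a b c).add (n6 a b c))
  refine ((n3.sub n5).add n7).mono ?_ ?_
  · linarith
  · have t1 : n * ε * D ≤ n * D := by
      rw [mul_assoc]; exact mul_le_mul_of_nonneg_left heD hn
    have t2 : ρ * (ε + n * ε) ≤ D + n * D := by
      have : ρ * (ε + n * ε) = (1 + n) * (ε * ρ) := by ring
      rw [this]
      have := mul_le_mul_of_nonneg_left hρ (show (0 : ℝ) ≤ 1 + n by linarith)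
      linarith
    linarith

end Vale.Agent.P088.HY.H856
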