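import Vale.Agent.P088.R2.H856.Pt

/-!
# P088, row EQC: bounds of the coefficients
-/

open MeasureTheory Set Filter
open scoped ContDiff Matrix Topology

noncomputable section

namespace Vale.Agent.P088.HY.H856

open Vale.Agent.P088.LR

variable {n : ℕ}

lemma norm_le_nr (v : V n) : ‖v‖ ≤ nr v :=
  (pi_norm_le_iff_of_nonneg (nr_nonneg v)).2 fun i => abs_le_nr v i

lemma norm_single (i : Fin n) : ‖(Pi.single i (1 : ℝ) : V n)‖ ≤ 1 := by
  refine (pi_norm_le_iff_of_nonneg zero_le_one).2 fun j => ?_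
  by_cases h : j = i
  · subst h; simp
  · rw [Pi.single_eq_of_ne h]; simp

section Cl

variable {f : V n → ℝ} {ε : ℝ} {K : ℕ}

lemma Cl.c0 (h : Cl K ε f) (x : V n) : |f x| ≤ ε := by
  have := h 0 (Nat.zero_le _) x
  rwa [norm_iteratedFDeriv_zero] at this

lemma Cl.f1 (h : Cl K ε f) (hK : 1 ≤ K) (x : V n) : ‖fderiv ℝ f x‖ ≤ ε := by
  have := h 1 hK x
  rwa [norm_iteratedFDeriv_one] at this

lemma Cl.c1 (h : Cl K ε f) (hK : 1 ≤ K) (i : Fin n) (x : V n) : |pd i f x| ≤ ε := by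
  have h1 := Cl.f1 h hK x
  have h0 : 0 ≤ ε := (norm_nonneg _).trans h1
  calc |pd i f x| = ‖fderiv ℝ f x (Pi.single i 1)‖ := rfl
    _ ≤ ‖fderiv ℝ f x‖ * ‖(Pi.single i (1 : ℝ) : V n)‖ := ContinuousLinearMap.le_opNorm _ _
    _ ≤ ε * 1 := mul_le_mul h1 (norm_single i) (norm_nonneg _) h0
    _ = ε := mul_one ε

lemma Cl.l0 (h : Cl K ε f) (hK : 1 ≤ K) (hf : ContDiff ℝ ∞ f) (x y : V n) :
    |f x - f y| ≤ ε * nr (x - y) := by
  have h0 : 0 ≤ ε := (norm_nonneg _).trans (Cl.f1 h hK x)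
  have := Convex.norm_image_sub_le_of_norm_fderiv_le (𝕜 := ℝ) (f := f) (s := Set.univ) (C := ε)
    (fun x _ => hf.differentiable (by simp) x) (fun x _ => Cl.f1 h hK x) convex_univ
    (mem_univ y) (mem_univ x)
  exact this.trans (mul_le_mul_of_nonneg_left (norm_le_nr _) h0)

lemma Cl.l1 (h : Cl K ε f) (hK : 2 ≤ K) (hf : ContDiff ℝ ∞ f) (i : Fin n) (x y : V n) :
    |pd i f x - pd i f y| ≤ ε * nr (x - y) := by
  have h2 : ∀ x, ‖fderiv ℝ (fderiv ℝ f) x‖ ≤ ε := by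
    intro x
    have := h 2 hK x
    rw [← norm_iteratedFDeriv_fderiv, norm_iteratedFDeriv_one] at this
    exact this
  have h0 : 0 ≤ ε := (norm_nonneg (iteratedFDeriv ℝ 2 f x)).trans (h 2 hK x)
  have hd : ContDiff ℝ ∞ (fderiv ℝ f) := hf.fderiv_right (m := ∞) (by simp)
  have h3 := Convex.norm_image_sub_le_of_norm_fderiv_le (𝕜 := ℝ) (f := fderiv ℝ f)
    (s := Set.univ) (C := ε) (fun x _ => hd.differentiable (by simp) x) (fun x _ => h2 x)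
    convex_univ (mem_univ y) (mem_univ x)
  calc |pd i f x - pd i f y| = ‖(fderiv ℝ f x - fderiv ℝ f y) (Pi.single i 1)‖ := rfl
    _ ≤ ‖fderiv ℝ f x - fderiv ℝ f y‖ * ‖(Pi.single i (1 : ℝ) : V n)‖ :=
        ContinuousLinearMap.le_opNorm _ _
    _ ≤ (ε * ‖x - y‖) * 1 := mul_le_mul h3 (norm_single i) (norm_nonneg _)
        (mul_nonneg h0 (norm_nonneg _))
    _ ≤ ε * nr (x - y) := by
        rw [mul_one]; exact mul_le_mul_of_nonneg_left (norm_le_nr _) h0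

end Cl

lemma one_kd (i j : Fin n) : (1 : Matrix (Fin n) (Fin n) ℝ) i j = kd i j := by
  unfold kd
  rw [Matrix.one_apply]

/-- `σ = s - 1`. -/
def sgm (s : MF n) (i j : Fin n) (x : V n) : ℝ := s x i j - (1 : Matrix (Fin n) (Fin n) ℝ) i j

lemma contDiff_sgm {s : MF n} (hs : SmM s) (i j : Fin n) : ContDiff ℝ ∞ (sgm s i j) :=
  (hs i j).sub contDiff_const

lemma pd_sgm (s : MF n) (k i j : Fin n) (x : V n) :
    pd k (fun x => s x i j) x = pd k (sgm s i j) x := by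
  unfold pd sgm
  rw [fderiv_sub_const]

lemma d1_eq {s : MF n} (hs : SmM s) (z : VV n) (j k l : Fin n) :
    d1 s z j k l = rr z.1 * pd j (sgm s k l) z.1 := by
  rw [← pd_sgm]
  show rr z.1 * dx j (fun z => (fun x => s x k l) z.1) z = _
  rw [dx_comp_fst ((hs k l).differentiable (by simp) z.1)]

lemma d2_eq {s : MF n} (hs : SmM s) (z : VV n) (j k l : Fin n) :
    d2 s z j k l = rr z.2 * pd j (sgm s k l) z.2 := by
  rw [← pd_sgm]
  show rr z.2 * dy j (fun z => (fun x => s x k l) z.2) z = _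
  rw [dy_comp_snd ((hs k l).differentiable (by simp) z.2)]

section pair

variable {s₁ s₂ : MF n} {ε h : ℝ}

lemma sg_near {K : ℕ} (hK : 1 ≤ K) (h₁ : TS n K ε s₁) (h₂ : TS n K ε s₂) (hd : DB K h s₁ s₂)
    (z : VV n) (i j : Fin n) :
    Nr ε (ε * rh z + h) (sm s₁ z.1 i j - kd i j) (sm s₂ z.2 i j - kd i j) := by
  have e1 : sm s₁ z.1 i j - kd i j = sgm s₁ i j z.1 := by
    unfold sgm sm; rw [one_kd]
  have e2 : sm s₂ z.2 i j - kd i j = sgm s₂ i j z.2 := by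
    unfold sgm sm; rw [one_kd]
  rw [e1, e2]
  refine ⟨Cl.c0 (h₁.cl i j) z.1, Cl.c0 (h₂.cl i j) z.2, ?_⟩
  have e3 : sgm s₁ i j z.1 - sgm s₂ i j z.2 = (sgm s₁ i j z.1 - sgm s₁ i j z.2)
      + (s₁ z.2 i j - s₂ z.2 i j) := by
    unfold sgm; ring
  rw [e3]
  exact (abs_add_le _ _).trans (add_le_add (Cl.l0 (h₁.cl i j) hK (contDiff_sgm h₁.sm i j) _ _)
    (Cl.c0 (hd i j) z.2))

lemma rr_lip {z : VV n} (hx : nr z.1 ≤ 1) (hy : nr z.2 ≤ 1) : |rr z.1 - rr z.2| ≤ rh z := by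
  have e : rr z.1 - rr z.2 = -(ip (z.1 - z.2) z.1 + ip (z.1 - z.2) z.2) / 2 := by
    rw [ip_sub_left, ip_sub_left, ip_comm z.2 z.1]
    have h1 : sq z.1 = ip z.1 z.1 := by
      unfold sq ip; exact Finset.sum_congr rfl fun i _ => pow_two _
    have h2 : sq z.2 = ip z.2 z.2 := by
      unfold sq ip; exact Finset.sum_congr rfl fun i _ => pow_two _
    unfold rr
    rw [h1, h2]
    ring
  rw [e]
  have h1 := abs_le.1 (abs_ip_le (z.1 - z.2) z.1)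
  have h2 := abs_le.1 (abs_ip_le (z.1 - z.2) z.2)
  have h3 : 0 ≤ nr (z.1 - z.2) := nr_nonneg _
  have h4 : nr (z.1 - z.2) * nr z.1 ≤ nr (z.1 - z.2) := mul_le_of_le_one_right h3 hx
  have h5 : nr (z.1 - z.2) * nr z.2 ≤ nr (z.1 - z.2) := mul_le_of_le_one_right h3 hy
  unfold rh
  apply abs_le.2
  constructor <;> linarith

lemma ds_near {K : ℕ} (hK : 2 ≤ K) (h₁ : TS n K ε s₁) (h₂ : TS n K ε s₂) (hd : DB K h s₁ s₂)
    (h0 : 0 ≤ ε) (hh : 0 ≤ h) {z : VV n} (hx : nr z.1 ≤ 1) (hy : nr z.2 ≤ 1) (hr1 : 0 ≤ rr z.1)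
    (hr2 : 0 ≤ rr z.2) (i j k : Fin n) :
    Nr ε (2 * (ε * rh z + h)) (d1 s₁ z i j k) (d2 s₂ z i j k) := by
  rw [d1_eq h₁.sm, d2_eq h₂.sm]
  have b1 := Cl.c1 (h₁.cl j k) (by omega) i z.1
  have b2 := Cl.c1 (h₂.cl j k) (by omega) i z.2
  have b3 : |pd i (sgm s₁ j k) z.1 - pd i (sgm s₂ j k) z.2| ≤ ε * rh z + h := by
    have e3 : pd i (sgm s₁ j k) z.1 - pd i (sgm s₂ j k) z.2 =
        (pd i (sgm s₁ j k) z.1 - pd i (sgm s₁ j k) z.2)
        + pd i (fun x => s₁ x j k - s₂ x j k) z.2 := by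
      have e4 : pd i (fun x => s₁ x j k - s₂ x j k) z.2 =
          pd i (sgm s₁ j k) z.2 - pd i (sgm s₂ j k) z.2 := by
        have e5 : (fun x => s₁ x j k - s₂ x j k) = sgm s₁ j k - sgm s₂ j k := by
          funext x; simp only [Pi.sub_apply]; unfold sgm; ring
        rw [e5]
        unfold pd
        rw [fderiv_sub ((contDiff_sgm h₁.sm j k).differentiable (by simp) _)
          ((contDiff_sgm h₂.sm j k).differentiable (by simp) _)]
        rfl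
      rw [e4]; ring
    rw [e3]
    exact (abs_add_le _ _).trans (add_le_add
      (Cl.l1 (h₁.cl j k) hK (contDiff_sgm h₁.sm j k) i _ _) (Cl.c1 (hd j k) (by omega) i z.2))
  have r1 : Nr (1 / 2) (rh z) (rr z.1) (rr z.2) :=
    ⟨by rw [abs_of_nonneg hr1]; exact rr_le _, by rw [abs_of_nonneg hr2]; exact rr_le _,
      rr_lip hx hy⟩
  have r2 : Nr ε (ε * rh z + h) (pd i (sgm s₁ j k) z.1) (pd i (sgm s₂ j k) z.2) := ⟨b1, b2, b3⟩
  have hr : 0 ≤ rh z := nr_nonneg _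
  have her : 0 ≤ ε * rh z := mul_nonneg h0 hr
  exact (r1.mul r2).mono (by linarith) (by linarith)

lemma x_near {z : VV n} (hx : nr z.1 ≤ 1) (hy : nr z.2 ≤ 1) (i : Fin n) :
    Nr 1 (rh z) (z.1 i) (z.2 i) :=
  ⟨(abs_le_nr z.1 i).trans hx, (abs_le_nr z.2 i).trans hy, abs_le_nr (z.1 - z.2) i⟩

/-- The coefficients of the error forms of `s₁` at `x` and of `s₂` at `y`. -/
lemma KK_pair (h₁ : TS n 3 ε s₁) (h₂ : TS n 3 ε s₂) (hd : DB 3 h s₁ s₂) (h0 : 0 ≤ ε)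
    (h1 : ε ≤ 1) (hh : 0 ≤ h) {z : VV n} (hx : nr z.1 ≤ 1) (hy : nr z.2 ≤ 1) (hr1 : 0 ≤ rr z.1)
    (hr2 : 0 ≤ rr z.2) (a b c : Fin n) :
    Nr ((5 + 9 * n) * ε) ((10 + 25 * n) * (ε * rh z + h))
      (KK (sm s₁ z.1) (d1 s₁ z) z.1 a b c) (KK (sm s₂ z.2) (d2 s₂ z) z.2 a b c) :=
  KK_near (ρ := rh z) h0 h1 (by linarith) (nr_nonneg _) (sg_near (by norm_num) h₁ h₂ hd z)
    (ds_near (by norm_num) h₁ h₂ hd h0 hh hx hy hr1 hr2) (x_near hx hy) a b c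

end pair

end Vale.Agent.P088.HY.H856
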