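import Vale.Agent.P088.R2.H856.Near

/-!
# P088, row EQC: absorption of the errors at a point
-/

open MeasureTheory Set Filter
open scoped ContDiff Matrix Topology

noncomputable section

namespace Vale.Agent.P088.HY.H856

open Vale.Agent.P088.LR

variable {n : ℕ}

/-- The weight of the errors, `t = 1 / τ`. -/
def WW (z : VV n) (t : ℝ) (xi et : Fin n → ℝ) : ℝ :=
  uu z * nr (xi + et) ^ 2 + (ps z + t) * (nr xi ^ 2 + nr et ^ 2)

section W

variable {z : VV n} {t : ℝ} {xi et : Fin n → ℝ}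

lemma WW_parts (hz : z ∈ Un n) (ht : 0 ≤ t) :
    0 ≤ uu z * nr (xi + et) ^ 2 ∧ 0 ≤ ps z * nr xi ^ 2 ∧ 0 ≤ ps z * nr et ^ 2 ∧
      0 ≤ t * nr xi ^ 2 ∧ 0 ≤ t * nr et ^ 2 := by
  have h0 := one_le_uu hz
  have hp := ps_nonneg hz
  refine ⟨?_, ?_, ?_, ?_, ?_⟩ <;> positivity

/-- `h g |η|² ≤ ε W` for `h ≤ ε t`. -/
lemma w3 (hz : z ∈ Un n) (ht : 0 ≤ t) (ht1 : t ≤ 1) {ε h : ℝ} (hε : 0 ≤ ε) (hh : h ≤ ε * t) :
    h * (gg z * nr et ^ 2) ≤ ε * WW z t xi et := by
  obtain ⟨p1, p2, p3, p4, p5⟩ := WW_parts (xi := xi) (et := et) hz ht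
  have h1 := gg_le_uu hz
  have h2 := um_le_ps hz
  have h3 := gg_nonneg z
  have h4 : 0 ≤ gg z * nr et ^ 2 := by positivity
  have h5 : h * (gg z * nr et ^ 2) ≤ ε * t * (gg z * nr et ^ 2) := mul_le_mul_of_nonneg_right hh h4
  have h6 : t * (gg z * nr et ^ 2) ≤ t * ((1 + ps z) * nr et ^ 2) := by
    apply mul_le_mul_of_nonneg_left _ ht
    exact mul_le_mul_of_nonneg_right (by linarith) (sq_nonneg _)
  have h7 : t * (ps z * nr et ^ 2) ≤ ps z * nr et ^ 2 := mul_le_of_le_one_left p3 ht1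
  have h8 : t * (gg z * nr et ^ 2) ≤ WW z t xi et := by
    unfold WW
    linarith
  calc _ ≤ ε * (t * (gg z * nr et ^ 2)) := by linarith
    _ ≤ _ := mul_le_mul_of_nonneg_left h8 hε

/-- `ρ g |η|² ≤ 4 W`. -/
lemma w2 (hz : z ∈ Un n) (ht : 0 ≤ t) : rh z * (gg z * nr et ^ 2) ≤ 4 * WW z t xi et := by
  obtain ⟨p1, p2, p3, p4, p5⟩ := WW_parts (xi := xi) (et := et) hz ht
  have h1 := rh_gg hz
  have h2 := um_le_ps hz
  have h3 : rh z * gg z * nr et ^ 2 ≤ 4 * ps z * nr et ^ 2 :=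
    mul_le_mul_of_nonneg_right (by linarith) (sq_nonneg _)
  unfold WW
  linarith

/-- `g |ζ| |η| ≤ W`. -/
lemma w1 (hz : z ∈ Un n) (ht : 0 ≤ t) :
    gg z * (nr (xi + et) * nr et) ≤ WW z t xi et ∧ gg z * (nr (xi + et) * nr xi) ≤ WW z t xi et := by
  obtain ⟨p1, p2, p3, p4, p5⟩ := WW_parts (xi := xi) (et := et) hz ht
  have h1 := amgm hz (nr (xi + et)) (nr et)
  have h2 := amgm hz (nr (xi + et)) (nr xi)
  unfold WW
  constructor <;> linarith

/-- `u ρ |ζ| |η| ≤ 3 W`. -/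
lemma w4 (hz : z ∈ Un n) (ht : 0 ≤ t) :
    uu z * rh z * (nr (xi + et) * nr et) ≤ 3 * WW z t xi et := by
  obtain ⟨p1, p2, p3, p4, p5⟩ := WW_parts (xi := xi) (et := et) hz ht
  have h0 := one_le_uu hz
  have h1 := rh_sq_uu hz
  have h2 := um_le_ps hz
  have h3 : rh z ^ 2 * uu z * nr et ^ 2 ≤ 5 * ps z * nr et ^ 2 :=
    mul_le_mul_of_nonneg_right (by linarith) (sq_nonneg _)
  have h4 : 0 ≤ uu z * (nr (xi + et) - rh z * nr et) ^ 2 := by positivity
  have h5 : uu z * (nr (xi + et) - rh z * nr et) ^ 2 = uu z * nr (xi + et) ^ 2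
      - 2 * (uu z * rh z * (nr (xi + et) * nr et)) + rh z ^ 2 * uu z * nr et ^ 2 := by ring
  unfold WW
  linarith

/-- `u h |ζ| |η| ≤ ε W` for `h ≤ ε t`. -/
lemma w5 (hz : z ∈ Un n) (ht : 0 ≤ t) (ht1 : t ≤ 1) {ε h : ℝ} (hε : 0 ≤ ε) (hh : h ≤ ε * t) :
    uu z * h * (nr (xi + et) * nr et) ≤ ε * WW z t xi et := by
  obtain ⟨p1, p2, p3, p4, p5⟩ := WW_parts (xi := xi) (et := et) hz ht
  have h0 := one_le_uu hz
  have hp := ps_nonneg hz
  have hu := um_le_ps hz
  have n1 := nr_nonneg (xi + et)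
  have n2 := nr_nonneg et
  have h1 : 0 ≤ uu z * (nr (xi + et) * nr et) := by positivity
  have h2 := mul_le_mul_of_nonneg_right hh h1
  have h4 : 0 ≤ uu z * (nr (xi + et) - t * nr et) ^ 2 := by positivity
  have h5 : uu z * (nr (xi + et) - t * nr et) ^ 2 = uu z * nr (xi + et) ^ 2
      - 2 * (t * (uu z * (nr (xi + et) * nr et))) + uu z * (t * t) * nr et ^ 2 := by ring
  have h6 : uu z * (t * t) ≤ (1 + ps z) * t := by
    calc uu z * (t * t) ≤ (1 + ps z) * (t * t) :=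
          mul_le_mul_of_nonneg_right (by linarith) (by positivity)
      _ ≤ (1 + ps z) * t :=
          mul_le_mul_of_nonneg_left (mul_le_of_le_one_left ht ht1) (by linarith)
  have h6' := mul_le_mul_of_nonneg_right h6 (sq_nonneg (nr et))
  have h7 : t * (ps z * nr et ^ 2) ≤ ps z * nr et ^ 2 := mul_le_of_le_one_left p3 ht1
  have h8 : t * (uu z * (nr (xi + et) * nr et)) ≤ WW z t xi et := by
    unfold WW
    linarith
  calc _ = h * (uu z * (nr (xi + et) * nr et)) := by ring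
    _ ≤ ε * t * (uu z * (nr (xi + et) * nr et)) := h2
    _ = ε * (t * (uu z * (nr (xi + et) * nr et))) := by ring
    _ ≤ _ := mul_le_mul_of_nonneg_left h8 hε

/-- The cross term. -/
lemma cross_le (hz : z ∈ Un n) (ht : 0 ≤ t) (ht1 : t ≤ 1) {ε h N : ℝ} (hε : 0 ≤ ε)
    (hh : h ≤ ε * t) (hN : 0 ≤ N) {xi' et' : Fin n → ℝ}
    (b1 : nr xi' ≤ N * ε * nr xi) (b2 : nr et' ≤ N * ε * nr et)
    (b3 : nr (xi' + et') ≤ N * ε * nr (xi + et) + N * (ε * rh z + h) * nr et) :
    |Hb z xi et xi' et'| ≤ 100 * N * (ε * WW z t xi et) := by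
  obtain ⟨p1, p2, p3, p4, p5⟩ := WW_parts (xi := xi) (et := et) hz ht
  have h0 := one_le_uu hz
  have hp := ps_nonneg hz
  have hu := um_le_ps hz
  have hg := gg_nonneg z
  have n1 := nr_nonneg (xi + et)
  have n2 := nr_nonneg et
  have n3 := nr_nonneg xi
  have n4 := nr_nonneg et'
  have n5 := nr_nonneg xi'
  have n6 := mul_nonneg n2 n4
  have n7 := add_nonneg (mul_nonneg n3 n4) (mul_nonneg n5 n2)
  have hNe : 0 ≤ N * ε := mul_nonneg hN hε
  have k := Hb_near hz xi et xi' et'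
  have k2 : |uu z * ip (xi + et) (xi' + et')| ≤ uu z * (nr (xi + et) * nr (xi' + et')) := by
    rw [abs_mul, abs_of_nonneg (show 0 ≤ uu z by linarith)]
    exact mul_le_mul_of_nonneg_left (abs_ip_le _ _) (by linarith)
  have W1 := (w1 (xi := xi) (et := et) (t := t) hz ht).1
  have W2 := w2 (xi := xi) (et := et) (t := t) hz ht
  have W3 := w3 (xi := xi) (et := et) hz ht ht1 hε hh
  have W4 := w4 (xi := xi) (et := et) (t := t) hz ht
  have W5 := w5 (xi := xi) (et := et) hz ht ht1 hε hh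
  set W := WW z t xi et with hW
  have Wu : uu z * nr (xi + et) ^ 2 ≤ W := by rw [hW]; unfold WW; linarith
  have Wp : ps z * nr et ^ 2 ≤ W := by rw [hW]; unfold WW; linarith
  have Wq : ps z * (nr xi * nr et) ≤ W := by
    have : ps z * (nr xi * nr et * 2) ≤ ps z * (nr xi ^ 2 + nr et ^ 2) :=
      mul_le_mul_of_nonneg_left (by nlinarith [sq_nonneg (nr xi - nr et)]) hp
    rw [hW]; unfold WW; linarith
  have W0 : 0 ≤ W := le_trans p1 Wu
  -- the main product
  have m1 : uu z * (nr (xi + et) * nr (xi' + et')) ≤ N * (5 * (ε * W)) := by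
    have e1 : uu z * (nr (xi + et) * nr (xi' + et')) ≤
        uu z * (nr (xi + et) * (N * ε * nr (xi + et) + N * (ε * rh z + h) * nr et)) := by
      gcongr
    have e2 : ε * (uu z * nr (xi + et) ^ 2) ≤ ε * W := mul_le_mul_of_nonneg_left Wu hε
    have e3 : ε * (uu z * rh z * (nr (xi + et) * nr et)) ≤ ε * (3 * W) :=
      mul_le_mul_of_nonneg_left W4 hε
    have e4 : uu z * (nr (xi + et) * (N * ε * nr (xi + et) + N * (ε * rh z + h) * nr et)) =
        N * (ε * (uu z * nr (xi + et) ^ 2) + ε * (uu z * rh z * (nr (xi + et) * nr et))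
          + uu z * h * (nr (xi + et) * nr et)) := by ring
    rw [e4] at e1
    refine e1.trans (mul_le_mul_of_nonneg_left ?_ hN)
    linarith
  have m2 : 2 * gg z * (nr (xi + et) * nr et') ≤ N * (2 * (ε * W)) := by
    have e1 : 2 * gg z * (nr (xi + et) * nr et') ≤ 2 * gg z * (nr (xi + et) * (N * ε * nr et)) := by
      gcongr
    have e2 : 2 * gg z * (nr (xi + et) * (N * ε * nr et)) =
        N * (2 * (ε * (gg z * (nr (xi + et) * nr et)))) := by ring
    rw [e2] at e1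
    refine e1.trans (mul_le_mul_of_nonneg_left ?_ hN)
    have := mul_le_mul_of_nonneg_left W1 hε
    linarith
  have m3 : 2 * gg z * (nr (xi' + et') * nr et) ≤ N * (12 * (ε * W)) := by
    have e1 : 2 * gg z * (nr (xi' + et') * nr et) ≤
        2 * gg z * ((N * ε * nr (xi + et) + N * (ε * rh z + h) * nr et) * nr et) := by
      gcongr
    have e2 : 2 * gg z * ((N * ε * nr (xi + et) + N * (ε * rh z + h) * nr et) * nr et) =
        N * (2 * (ε * (gg z * (nr (xi + et) * nr et))) + 2 * (ε * (rh z * (gg z * nr et ^ 2)))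
          + 2 * (h * (gg z * nr et ^ 2))) := by ring
    rw [e2] at e1
    refine e1.trans (mul_le_mul_of_nonneg_left ?_ hN)
    have q1 := mul_le_mul_of_nonneg_left W1 hε
    have q2 := mul_le_mul_of_nonneg_left W2 hε
    linarith
  have m4 : 12 * (uu z - 1) * (nr et * nr et') ≤ N * (12 * (ε * W)) := by
    have e1 : 12 * (uu z - 1) * (nr et * nr et') ≤ 12 * ps z * (nr et * (N * ε * nr et)) := by
      gcongr
    have e2 : 12 * ps z * (nr et * (N * ε * nr et)) = N * (12 * (ε * (ps z * nr et ^ 2))) := by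
      ring
    rw [e2] at e1
    refine e1.trans (mul_le_mul_of_nonneg_left ?_ hN)
    have := mul_le_mul_of_nonneg_left Wp hε
    linarith
  have m5 : 2 * (uu z - 1) * (nr xi * nr et' + nr xi' * nr et) ≤ N * (4 * (ε * W)) := by
    have e1 : 2 * (uu z - 1) * (nr xi * nr et' + nr xi' * nr et) ≤
        2 * ps z * (nr xi * (N * ε * nr et) + (N * ε * nr xi) * nr et) := by
      gcongr
    have e2 : 2 * ps z * (nr xi * (N * ε * nr et) + (N * ε * nr xi) * nr et) =
        N * (4 * (ε * (ps z * (nr xi * nr et)))) := by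
      ring
    rw [e2] at e1
    refine e1.trans (mul_le_mul_of_nonneg_left ?_ hN)
    have := mul_le_mul_of_nonneg_left Wq hε
    linarith
  have k' := abs_le.1 k
  have k2' := abs_le.1 k2
  have hNW : 0 ≤ N * (ε * W) := by positivity
  apply abs_le.2
  constructor <;> linarith

end W

end Vale.Agent.P088.HY.H856
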