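import Vale.Agent.P088.R2.H856.Cross
import Vale.Agent.P088.R2.H856.Coef

/-!
# P088, row EQC
-/

open MeasureTheory Set Filter
open scoped ContDiff Matrix Topology

noncomputable section

namespace Vale.Agent.P088.HY.H856

open Vale.Agent.P088.LR

variable {n : ℕ}

/-! ### Bilinearity of `H_-` -/

lemma mf_add_left (z : VV n) (v v' w : Fin n → ℝ) : mf z (v + v') w = mf z v w + mf z v' w := by
  rw [mf_mw, mf_mw, mf_mw, ip_add_left]

lemma mf_add_right (z : VV n) (v w w' : Fin n → ℝ) : mf z v (w + w') = mf z v w + mf z v w' := by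
  unfold mf
  rw [← Finset.sum_add_distrib]
  refine Finset.sum_congr rfl fun i _ => ?_
  rw [← Finset.sum_add_distrib]
  refine Finset.sum_congr rfl fun k _ => ?_
  simp only [Pi.add_apply]
  ring

lemma Hb_add (z : VV n) (xi et xi' et' : Fin n → ℝ) :
    Hb z (xi + xi') (et + et') (xi + xi') (et + et') =
      Hb z xi et xi et + 2 * Hb z xi et xi' et' + Hb z xi' et' xi' et' := by
  unfold Hb
  simp only [mf_add_left, mf_add_right, ip_add_left, ip_add_right]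
  rw [ip_comm xi' xi, ip_comm et' et]
  ring

lemma mv_split (s sg : Fin n → Fin n → ℝ) (h : ∀ i j, s i j = kd i j + sg i j) (v : Fin n → ℝ) :
    mv s v = v + mv sg v := by
  funext j
  show ∑ i, s i j * v i = v j + ∑ i, sg i j * v i
  have h1 : ∀ i, s i j * v i = kd i j * v i + sg i j * v i := fun i => by rw [h]; ring
  simp only [h1, Finset.sum_add_distrib]
  rw [sum_kd' j fun i => v i]

lemma mv_add (s : Fin n → Fin n → ℝ) (v w : Fin n → ℝ) : mv s (v + w) = mv s v + mv s w := by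
  funext j
  show ∑ i, s i j * (v i + w i) = ∑ i, s i j * v i + ∑ i, s i j * w i
  rw [← Finset.sum_add_distrib]
  exact Finset.sum_congr rfl fun i _ => by ring

lemma mv_pair (s1 s2 : Fin n → Fin n → ℝ) (v w : Fin n → ℝ) :
    mv s1 v + mv s2 w = mv s1 (v + w) + mv (fun i j => s2 i j - s1 i j) w := by
  rw [mv_add, add_assoc]
  congr 1
  funext j
  show ∑ i, s2 i j * w i = ∑ i, s1 i j * w i + ∑ i, (s2 i j - s1 i j) * w i
  rw [← Finset.sum_add_distrib]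
  exact Finset.sum_congr rfl fun i _ => by ring

section main

variable {s₁ s₂ : MF n} {ε h t : ℝ} {z : VV n}

/-- The sum of the three forms. -/
def TH (s₁ s₂ : MF n) (z : VV n) (xi et : Fin n → ℝ) : ℝ :=
  HG (sm s₁ z.1) (d1 s₁ z) (uu z - xa z) z.1 (vA z) xi xi
    + HG (sm s₂ z.2) (d2 s₂ z) (uu z - yb z) z.2 (vB z) et et
    - 4 * mf z (mv (sm s₁ z.1) xi) (mv (sm s₂ z.2) et)

lemma TH_eq (s₁ s₂ : MF n) (z : VV n) (xi et : Fin n → ℝ) :
    TH s₁ s₂ z xi et = 2 * Hb z (mv (sm s₁ z.1) xi) (mv (sm s₂ z.2) et) (mv (sm s₁ z.1) xi)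
        (mv (sm s₂ z.2) et)
      + (tri (KK (sm s₁ z.1) (d1 s₁ z) z.1) (vA z) xi xi
        + tri (KK (sm s₂ z.2) (d2 s₂ z) z.2) (vB z) et et) := by
  have e1 : xa z = ip z.1 (vA z) := rfl
  have e2 : yb z = ip z.2 (vB z) := rfl
  unfold TH Hb
  rw [e1, e2, HG_eq, HG_eq]
  ring

/-- The bound of the error forms. -/
lemma tri_bound (hz : z ∈ Un n) (h₁ : TS n 3 ε s₁) (h₂ : TS n 3 ε s₂) (hd : DB 3 h s₁ s₂)
    (h0 : 0 ≤ ε) (h1 : ε ≤ 1) (hh : 0 ≤ h) (xi et : Fin n → ℝ) :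
    |tri (KK (sm s₁ z.1) (d1 s₁ z) z.1) (vA z) xi xi
        + tri (KK (sm s₂ z.2) (d2 s₂ z) z.2) (vB z) et et| ≤
      (n : ℝ) ^ 3 * ((5 + 9 * n) * ε * (2 * (uu z - 1) * nr xi ^ 2)
        + (10 + 25 * n) * (ε * rh z + h) * (gg z * nr et ^ 2)
        + (5 + 9 * n) * ε * (gg z * (nr xi + nr et) * nr (xi + et))) := by
  have hn : (0 : ℝ) ≤ n := Nat.cast_nonneg n
  have hr : 0 ≤ rh z := rh_nonneg z
  have her : 0 ≤ ε * rh z + h := by positivity
  have k := fun a b c => KK_pair h₁ h₂ hd h0 h1 hh (nr_x_le hz) (nr_y_le hz) (r1_pos hz).le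
    (r2_pos hz).le a b c
  have k2 := tri_pair_le (b := (5 + 9 * n) * ε) (d := (10 + 25 * n) * (ε * rh z + h))
    (by positivity) (by positivity) (fun a b c => (k a b c).1)
    (fun a b c => by rw [abs_sub_comm]; exact (k a b c).2.2) (vA z) (vB z) xi et
  rw [nr_B hz] at k2
  refine k2.trans ?_
  have hab := nr_ab_le hz
  gcongr

/-- The comparison of the form with `2 H_-`. -/
lemma TH_lower (hz : z ∈ Un n) (h₁ : TS n 3 ε s₁) (h₂ : TS n 3 ε s₂) (hd : DB 3 h s₁ s₂)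
    (h0 : 0 ≤ ε) (h1 : ε ≤ 1) (hh : 0 ≤ h) (ht : 0 ≤ t) (ht1 : t ≤ 1) (hht : h ≤ ε * t)
    (xi et : Fin n → ℝ) :
    2 * Hb z xi et xi et - (400 * (n : ℝ) ^ 2 + (n : ℝ) ^ 3 * (70 + 161 * n))
      * (ε * WW z t xi et) ≤ TH s₁ s₂ z xi et := by
  have hn : (0 : ℝ) ≤ n := Nat.cast_nonneg n
  have hr : 0 ≤ rh z := rh_nonneg z
  have hg := gg_nonneg z
  obtain ⟨p1, p2, p3, p4, p5⟩ := WW_parts (xi := xi) (et := et) hz ht
  have hu := um_le_ps hz
  have hb := tri_bound hz h₁ h₂ hd h0 h1 hh xi et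
  have near := sg_near (n := n) (by norm_num) h₁ h₂ hd z
  set sg1 : Fin n → Fin n → ℝ := fun i j => sm s₁ z.1 i j - kd i j with hsg1
  set sg2 : Fin n → Fin n → ℝ := fun i j => sm s₂ z.2 i j - kd i j with hsg2
  have m1 : mv (sm s₁ z.1) xi = xi + mv sg1 xi := mv_split _ _ (fun i j => by rw [hsg1]; ring) _
  have m2 : mv (sm s₂ z.2) et = et + mv sg2 et := mv_split _ _ (fun i j => by rw [hsg2]; ring) _
  have b1 : nr (mv sg1 xi) ≤ (n : ℝ) ^ 2 * ε * nr xi := nr_mv_le h0 (fun i j => (near i j).1) xi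
  have b2 : nr (mv sg2 et) ≤ (n : ℝ) ^ 2 * ε * nr et := nr_mv_le h0 (fun i j => (near i j).2.1) et
  have b3 : nr (mv sg1 xi + mv sg2 et) ≤ (n : ℝ) ^ 2 * ε * nr (xi + et)
      + (n : ℝ) ^ 2 * (ε * rh z + h) * nr et := by
    rw [mv_pair]
    refine (nr_add_le _ _).trans (add_le_add ?_ ?_)
    · exact nr_mv_le h0 (fun i j => (near i j).1) _
    · refine nr_mv_le (by positivity) (fun i j => ?_) _
      rw [abs_sub_comm]
      exact (near i j).2.2
  have cr := (abs_le.1 (cross_le hz ht ht1 h0 hht (by positivity) b1 b2 b3)).1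
  have pos := Hb_nonneg hz (mv sg1 xi) (mv sg2 et)
  have W1 := w1 (xi := xi) (et := et) (t := t) hz ht
  have W2 := w2 (xi := xi) (et := et) (t := t) hz ht
  have W3 := w3 (xi := xi) (et := et) hz ht ht1 h0 hht
  rw [TH_eq, m1, m2, Hb_add]
  set W := WW z t xi et with hW
  have Wp : ps z * nr xi ^ 2 ≤ W := by rw [hW]; unfold WW; linarith
  have W0 : 0 ≤ W := le_trans p2 Wp
  have hb' : |tri (KK (sm s₁ z.1) (d1 s₁ z) z.1) (vA z) xi xi
        + tri (KK (sm s₂ z.2) (d2 s₂ z) z.2) (vB z) et et| ≤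
      (n : ℝ) ^ 3 * (70 + 161 * n) * (ε * W) := by
    refine hb.trans ?_
    have q1 : ε * (2 * (uu z - 1) * nr xi ^ 2) ≤ ε * (2 * W) := by
      apply mul_le_mul_of_nonneg_left _ h0
      have := mul_le_mul_of_nonneg_right hu (sq_nonneg (nr xi))
      linarith
    have q2 : (ε * rh z + h) * (gg z * nr et ^ 2) ≤ 5 * (ε * W) := by
      have := mul_le_mul_of_nonneg_left W2 h0
      linarith
    have q3 : ε * (gg z * (nr xi + nr et) * nr (xi + et)) ≤ ε * (2 * W) := by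
      apply mul_le_mul_of_nonneg_left _ h0
      have e : gg z * (nr xi + nr et) * nr (xi + et) = gg z * (nr (xi + et) * nr et)
        + gg z * (nr (xi + et) * nr xi) := by ring
      rw [e]
      linarith [W1.1, W1.2]
    have c1 : (0 : ℝ) ≤ 5 + 9 * n := by linarith
    have c2 : (0 : ℝ) ≤ 10 + 25 * n := by linarith
    have r1 := mul_le_mul_of_nonneg_left q1 c1
    have r2 := mul_le_mul_of_nonneg_left q2 c2
    have r3 := mul_le_mul_of_nonneg_left q3 c1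
    have n3 : (0 : ℝ) ≤ (n : ℝ) ^ 3 := by positivity
    have e : (n : ℝ) ^ 3 * (70 + 161 * n) * (ε * W) = (n : ℝ) ^ 3 * ((5 + 9 * n) * (ε * (2 * W))
        + (10 + 25 * n) * (5 * (ε * W)) + (5 + 9 * n) * (ε * (2 * W))) := by ring
    rw [e]
    apply mul_le_mul_of_nonneg_left _ n3
    linarith
  have hb2 := (abs_le.1 hb').1
  have e : (400 * (n : ℝ) ^ 2 + (n : ℝ) ^ 3 * (70 + 161 * n)) * (ε * W) =
    4 * (100 * (n : ℝ) ^ 2 * (ε * W)) + (n : ℝ) ^ 3 * (70 + 161 * n) * (ε * W) := by ring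
  rw [e]
  linarith

/-- `t g³ ≤ 2 (u ψ² + t²)`. -/
lemma g3_le (hz : z ∈ Un n) (ht : 0 ≤ t) (ht1 : t ≤ 1) :
    t * gg z ^ 3 ≤ 2 * (uu z * ps z ^ 2 + t ^ 2) := by
  have hg := gg_nonneg z
  have h0 := one_le_uu hz
  have hp := ps_nonneg hz
  have h1 := gg_sq' hz
  have h2 := gg_sq hz
  have h3 : uu z ≤ 1 + gg z := by
    apply abs_le_of_sq_le_sq' _ (by linarith) |>.2
    nlinarith
  have hP : uu z * (uu z * ps z ^ 2) = gg z ^ 4 := by
    have : gg z ^ 4 = (gg z ^ 2) ^ 2 := by ring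
    rw [this, h1]; ring
  have hP0 : 0 ≤ uu z * ps z ^ 2 := by positivity
  rcases le_total (gg z) 1 with hg1 | hg1
  · have a1 : gg z ^ 4 ≤ 2 * (uu z * ps z ^ 2) := by
      rw [← hP]; exact mul_le_mul_of_nonneg_right (by linarith) hP0
    have a2 : t * gg z ^ 3 ≤ t * gg z ^ 2 := by
      apply mul_le_mul_of_nonneg_left _ ht
      have : gg z ^ 3 = gg z * gg z ^ 2 := by ring
      rw [this]; exact mul_le_of_le_one_left (sq_nonneg _) hg1
    have a3 : 2 * (t * gg z ^ 2) ≤ t ^ 2 + gg z ^ 4 := by nlinarith [sq_nonneg (t - gg z ^ 2)]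
    have a4 : 0 ≤ t ^ 2 := sq_nonneg t
    linarith
  · have a1 : gg z * gg z ^ 3 ≤ gg z * (2 * (uu z * ps z ^ 2)) := by
      have e : gg z * gg z ^ 3 = gg z ^ 4 := by ring
      rw [e, ← hP]
      have := mul_le_mul_of_nonneg_right (show uu z ≤ 2 * gg z by linarith) hP0
      linarith
    have a2 : gg z ^ 3 ≤ 2 * (uu z * ps z ^ 2) := le_of_mul_le_mul_left a1 (by linarith)
    have a3 : t * gg z ^ 3 ≤ gg z ^ 3 := mul_le_of_le_one_left (by positivity) ht1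
    have a4 : 0 ≤ t ^ 2 := sq_nonneg t
    linarith

/-- The cubic term. -/
lemma TH_cubic (hz : z ∈ Un n) (h₁ : TS n 3 ε s₁) (h₂ : TS n 3 ε s₂) (hd : DB 3 h s₁ s₂)
    (h0 : 0 ≤ ε) (h1 : ε ≤ 1) (hh : 0 ≤ h) (ht : 0 ≤ t) (ht1 : t ≤ 1) (hht : h ≤ ε * t) :
    -((n : ℝ) ^ 3 * (90 + 204 * n) * (ε * (uu z * ps z ^ 2 + t ^ 2))) ≤
      TH s₁ s₂ z (vA z) (vB z) := by
  have hn : (0 : ℝ) ≤ n := Nat.cast_nonneg n
  have hr : 0 ≤ rh z := rh_nonneg z
  have hg := gg_nonneg z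
  have hu0 := one_le_uu hz
  have hp := ps_nonneg hz
  have hu := um_le_ps hz
  have hb := tri_bound hz h₁ h₂ hd h0 h1 hh (vA z) (vB z)
  have pos := Hb_nonneg hz (mv (sm s₁ z.1) (vA z)) (mv (sm s₂ z.2) (vB z))
  have hab := nr_ab_le hz
  have hnA : nr (vA z) = gg z := rfl
  rw [nr_B hz, hnA] at hb
  set P := uu z * ps z ^ 2 with hP
  have hg2 := gg_sq' hz
  have q1 : (uu z - 1) * gg z ^ 2 ≤ P := by
    have := mul_le_mul_of_nonneg_right hu (sq_nonneg (gg z))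
    have e : ps z * gg z ^ 2 = P := by rw [hg2, hP]; ring
    linarith
  have q2 : (ε * rh z + h) * (gg z * gg z ^ 2) ≤ ε * (6 * P + 2 * t ^ 2) := by
    have a1 := mul_le_mul_of_nonneg_right (rh_gg hz) (sq_nonneg (gg z))
    have a2 := g3_le hz ht ht1
    have a3 : 0 ≤ gg z ^ 3 := by positivity
    have a4 := mul_le_mul_of_nonneg_right hht a3
    have a5 : ε * (t * gg z ^ 3) ≤ ε * (2 * (P + t ^ 2)) := mul_le_mul_of_nonneg_left a2 h0
    have a6 : ε * (rh z * gg z * gg z ^ 2) ≤ ε * (4 * P) :=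
      mul_le_mul_of_nonneg_left (by linarith) h0
    have e : (ε * rh z + h) * (gg z * gg z ^ 2) = ε * (rh z * gg z * gg z ^ 2) + h * gg z ^ 3 := by
      ring
    rw [e]
    linarith
  have q3 : gg z * (gg z + gg z) * nr (vA z + vB z) ≤ 4 * P := by
    have a1 := mul_le_mul_of_nonneg_left hab (show 0 ≤ gg z * (gg z + gg z) by positivity)
    linarith
  have ht2 : 0 ≤ t ^ 2 := sq_nonneg t
  have hP0 : 0 ≤ P := by positivity
  have hb' : |tri (KK (sm s₁ z.1) (d1 s₁ z) z.1) (vA z) (vA z) (vA z)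
        + tri (KK (sm s₂ z.2) (d2 s₂ z) z.2) (vB z) (vB z) (vB z)| ≤
      (n : ℝ) ^ 3 * (90 + 204 * n) * (ε * (P + t ^ 2)) := by
    refine hb.trans ?_
    have c1 : (0 : ℝ) ≤ (5 + 9 * n) * ε := by positivity
    have c2 : (0 : ℝ) ≤ 10 + 25 * n := by linarith
    have r1 := mul_le_mul_of_nonneg_left (show 2 * (uu z - 1) * gg z ^ 2 ≤ 2 * P by linarith) c1
    have r2 := mul_le_mul_of_nonneg_left q2 c2
    have r3 := mul_le_mul_of_nonneg_left q3 c1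
    have n3 : (0 : ℝ) ≤ (n : ℝ) ^ 3 := by positivity
    have z1 : 0 ≤ ε * P := by positivity
    have z2 : 0 ≤ ε * t ^ 2 := by positivity
    have z3 : 0 ≤ n * (ε * P) := by positivity
    have z4 : 0 ≤ n * (ε * t ^ 2) := by positivity
    have e : (n : ℝ) ^ 3 * (90 + 204 * n) * (ε * (P + t ^ 2)) =
      (n : ℝ) ^ 3 * ((90 + 204 * n) * (ε * (P + t ^ 2))) := by ring
    rw [e]
    apply mul_le_mul_of_nonneg_left _ n3
    linarith
  have hb2 := (abs_le.1 hb').1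
  rw [TH_eq]
  linarith

end main

/-! ### The row -/

lemma su_Fxs {s : MF n} (hs : SmM s) : SU (Fxs s) := su_Gax hs su_uu su_uu

lemma su_Fys {s : MF n} (hs : SmM s) : SU (Fys s) := su_Gay hs su_uu su_uu

lemma Gax_sub {s : MF n} {F G : VV n → ℝ} (hF : SU F) (hG : SU G) {z : VV n} (hz : z ∈ Un n) :
    Gax s uu (fun z => F z - G z) z = Gax s uu F z - Gax s uu G z := by
  have h : ∀ j, Ax j (fun z => F z - G z) z = Ax j F z - Ax j G z := fun j =>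
    Dr_sub (ρ := r1) (e := (Pi.single j 1, 0)) hF hG hz
  unfold Gax
  simp only [← Finset.sum_sub_distrib]
  refine Finset.sum_congr rfl fun i _ => Finset.sum_congr rfl fun j _ => ?_
  rw [h j]
  ring

lemma Gay_sub {s : MF n} {F G : VV n → ℝ} (hF : SU F) (hG : SU G) {z : VV n} (hz : z ∈ Un n) :
    Gay s uu (fun z => F z - G z) z = Gay s uu F z - Gay s uu G z := by
  have h : ∀ j, By j (fun z => F z - G z) z = By j F z - By j G z := fun j =>
    Dr_sub (ρ := r2) (e := (0, Pi.single j 1)) hF hG hz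
  unfold Gay
  simp only [← Finset.sum_sub_distrib]
  refine Finset.sum_congr rfl fun i _ => Finset.sum_congr rfl fun j _ => ?_
  rw [h j]
  ring

/-- The quadratic form in the gradient. -/
lemma quad_eq {s₁ s₂ : MF n} (h₁ : SmM s₁) (h₂ : SmM s₂) (y₁ : ∀ x, (s₁ x).IsSymm)
    (y₂ : ∀ x, (s₂ x).IsSymm) {f : VV n → ℝ} (hf : SU f) {z : VV n} (hz : z ∈ Un n) :
    Gx s₁ f f z + Gy s₂ f f z - 4 * Gm s₁ s₂ f f z =
      TH s₁ s₂ z (fun i => Ax i f z) (fun i => By i f z) := by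
  rw [Gx_eq h₁ y₁ hf hf hz, Gy_eq h₂ y₂ hf hf hz, Gm_eq y₂ f f z y₁]
  rfl

/-- The cubic term. -/
lemma cub_eq {s₁ s₂ : MF n} (h₁ : SmM s₁) (h₂ : SmM s₂) (y₁ : ∀ x, (s₁ x).IsSymm)
    (y₂ : ∀ x, (s₂ x).IsSymm) {z : VV n} (hz : z ∈ Un n) :
    Gax s₁ uu (fun z => Fxs s₁ z - Fys s₂ z) z - Gay s₂ uu (fun z => Fxs s₁ z - Fys s₂ z) z =
      TH s₁ s₂ z (vA z) (vB z) := by
  rw [Gax_sub (su_Fxs h₁) (su_Fys h₂) hz, Gay_sub (su_Fxs h₁) (su_Fys h₂) hz, Gax_Fxs, Gay_Fys,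
    Gax_Fys h₂ y₂ hz, Gay_Fxs h₁ y₁ hz, Gx_eq h₁ y₁ su_uu su_uu hz, Gy_eq h₂ y₂ su_uu su_uu hz]
  have e1 : HG (sm s₁ z.1) (d1 s₁ z) (uu z - xa z) z.1 (fun i => al i z) (fun i => Ax i uu z)
      (fun i => Ax i uu z) = HG (sm s₁ z.1) (d1 s₁ z) (uu z - xa z) z.1 (vA z) (vA z) (vA z) := rfl
  have e2 : HG (sm s₂ z.2) (d2 s₂ z) (uu z - yb z) z.2 (fun i => be i z) (fun i => By i uu z)
      (fun i => By i uu z) = HG (sm s₂ z.2) (d2 s₂ z) (uu z - yb z) z.2 (vB z) (vB z) (vB z) := rfl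
  have e3 : mf z (mv (sm s₁ z.1) fun i => al i z) (mv (sm s₂ z.2) fun i => be i z) =
    mf z (mv (sm s₁ z.1) (vA z)) (mv (sm s₂ z.2) (vB z)) := rfl
  rw [e1, e2, e3]
  unfold TH
  ring

lemma g2_eq (f : VV n → ℝ) (z : VV n) :
    g2 f z = nr (fun i => Ax i f z) ^ 2 + nr (fun i => By i f z) ^ 2 := by
  rw [nr_sq, nr_sq]
  unfold g2 ip
  simp only [pow_two]

/-- **Row EQC.** -/
theorem rowEQC : RowEBD → RowEQC := by
  intro hebd n
  obtain ⟨C₀, hC₀, hbd⟩ := hebd n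
  have hn : (0 : ℝ) ≤ n := Nat.cast_nonneg n
  set C₁ : ℝ := 400 * (n : ℝ) ^ 2 + (n : ℝ) ^ 3 * (70 + 161 * n) with hC₁
  set C₃ : ℝ := (n : ℝ) ^ 3 * (90 + 204 * n) with hC₃
  have hC₁0 : 0 ≤ C₁ := by positivity
  have hC₃0 : 0 ≤ C₃ := by positivity
  refine ⟨61 * C₁ + 8 * C₀ + C₃, by positivity, ?_⟩
  intro ε h s₁ s₂ h0 h1 h₁ h₂ hd τ hτ hτh f hf z hz
  have hτ0 : 0 < τ := lt_of_lt_of_le one_pos hτ
  by_cases hh : 0 ≤ h
  swap
  · -- `DB` with a negative bound forces `n = 0`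
    have hn0 : n = 0 := by
      by_contra hne
      have i : Fin n := ⟨0, Nat.pos_of_ne_zero hne⟩
      exact hh ((abs_nonneg _).trans (Cl.c0 (hd i i) 0))
    subst hn0
    have hu : uu z = 1 := by unfold uu sq; simp
    have hq : qC s₁ s₂ τ f z = 0 := by
      unfold qC Gx Gy Gm Gax Gay L0x L0y
      simp
    have hH : Hm f z = 0 := by
      unfold Hm g2 cr; simp
    have hps : ps z = 0 := by unfold ps; rw [hu]; simp
    rw [hq, hH]
    unfold Nc g2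
    rw [hps, hH]
    have : 0 ≤ (61 * C₁ + 8 * C₀ + C₃) * ε * (τ * f z ^ 2) := by positivity
    simp
    linarith
  set t : ℝ := 1 / τ with ht
  have ht0 : 0 ≤ t := by positivity
  have ht1 : t ≤ 1 := by rw [ht, div_le_one hτ0]; exact hτ
  have hτt : τ * t = 1 := by rw [ht]; field_simp
  have hht : h ≤ ε * t := by
    rw [ht, mul_one_div, le_div_iff₀ hτ0]
    linarith
  have hu0 := one_le_uu hz
  have hp := ps_nonneg hz
  have hup := um_le_ps hz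
  obtain ⟨-, -, -, -, -, -, k1, k2, k3, k4, k5, k6⟩ := hbd ε s₁ s₂ h0 h1 h₁ h₂ z hz
  -- the three parts
  set xi : Fin n → ℝ := fun i => Ax i f z with hxi
  set et : Fin n → ℝ := fun i => By i f z with het
  have A := TH_lower hz h₁ h₂ hd h0 h1 hh ht0 ht1 hht xi et
  have B := TH_cubic hz h₁ h₂ hd h0 h1 hh ht0 ht1 hht
  have hHm : Hm f z = Hb z xi et xi et := Hm_eq f z
  have hH0 : 0 ≤ Hb z xi et xi et := Hb_nonneg hz xi et
  have hg2 : g2 f z = nr xi ^ 2 + nr et ^ 2 := g2_eq f z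
  have hg20 : 0 ≤ g2 f z := by rw [hg2]; positivity
  -- the quadratic part
  have W : τ * WW z t xi et ≤ 61 * (τ * Hm f z + τ * ps z * g2 f z + g2 f z) := by
    have a := mul_le_mul_of_nonneg_left (uz_le hz xi et) hτ0.le
    have e : τ * WW z t xi et = τ * (uu z * nr (xi + et) ^ 2) + τ * ps z * g2 f z
        + (τ * t) * g2 f z := by
      unfold WW; rw [hg2]; ring
    rw [e, hτt, hHm]
    rw [← hg2] at a
    have b1 : 0 ≤ τ * Hb z xi et xi et := mul_nonneg hτ0.le hH0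
    have b2 : 0 ≤ τ * ps z * g2 f z := by positivity
    linarith
  have Q : 2 * τ * Hm f z - 61 * C₁ * ε * (τ * Hm f z + τ * ps z * g2 f z + g2 f z) ≤
      τ * (Gx s₁ f f z + Gy s₂ f f z - 4 * Gm s₁ s₂ f f z) := by
    rw [quad_eq h₁.sm h₂.sm h₁.sy h₂.sy hf hz]
    have a := mul_le_mul_of_nonneg_left A hτ0.le
    have b := mul_le_mul_of_nonneg_left W (show 0 ≤ C₁ * ε by positivity)
    rw [← hHm] at a
    linarith
  -- the zero order part
  have f0 : 0 ≤ f z ^ 2 := sq_nonneg _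
  have U : uu z ≤ 2 + 2 * (uu z * ps z ^ 2) := by
    have hP0 : 0 ≤ uu z * ps z ^ 2 := by positivity
    rcases le_total (uu z) 2 with h2 | h2
    · linarith
    · have h3 : 1 ≤ ps z := by linarith
      have h4 : 1 ≤ ps z ^ 2 := one_le_pow₀ h3
      have := mul_le_mul_of_nonneg_left h4 (show 0 ≤ uu z by linarith)
      linarith
  have hτ2 : 1 ≤ τ ^ 2 := one_le_pow₀ hτ
  have U2 : τ * uu z ≤ 2 * (τ ^ 3 * (uu z * ps z ^ 2) + τ) := by
    have hP0 : 0 ≤ uu z * ps z ^ 2 := by positivity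
    have a := mul_le_mul_of_nonneg_left U hτ0.le
    have b := mul_le_mul_of_nonneg_right hτ2 (show 0 ≤ τ * (uu z * ps z ^ 2) by positivity)
    have e : τ ^ 2 * (τ * (uu z * ps z ^ 2)) = τ ^ 3 * (uu z * ps z ^ 2) := by ring
    linarith
  set c0 : ℝ := -(1 / 2) * (L0x s₁ (kax s₁) z + L0y s₂ (kay s₂) z - L0x s₁ (kay s₂) z
      - L0y s₂ (kax s₁) z) + Gax s₁ uu (vx s₁) z + Gay s₂ uu (vy s₂) z with hc0
  have Z : -(4 * (C₀ * ε * uu z)) ≤ c0 := by
    have l1 := (abs_le.1 k1)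
    have l2 := (abs_le.1 k2)
    have l3 := (abs_le.1 k3)
    have l4 := (abs_le.1 k4)
    have l5 := (abs_le.1 k5)
    have l6 := (abs_le.1 k6)
    rw [hc0]
    linarith [l1.1, l1.2, l2.1, l2.2, l3.1, l3.2, l4.1, l4.2, l5.1, l5.2, l6.1, l6.2]
  have Z2 : -(8 * C₀ * ε * (τ ^ 3 * (uu z * ps z ^ 2) * f z ^ 2 + τ * f z ^ 2)) ≤
      τ * c0 * f z ^ 2 := by
    have a := mul_le_mul_of_nonneg_left Z hτ0.le
    have b := mul_le_mul_of_nonneg_right a f0
    have c := mul_le_mul_of_nonneg_left U2 (show 0 ≤ 4 * (C₀ * ε) by positivity)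
    have d := mul_le_mul_of_nonneg_right c f0
    linarith
  -- the cubic part
  have E : -(C₃ * ε * (τ ^ 3 * (uu z * ps z ^ 2) * f z ^ 2 + τ * f z ^ 2)) ≤
      τ ^ 3 * (Gax s₁ uu (fun z => Fxs s₁ z - Fys s₂ z) z
        - Gay s₂ uu (fun z => Fxs s₁ z - Fys s₂ z) z) * f z ^ 2 := by
    rw [cub_eq h₁.sm h₂.sm h₁.sy h₂.sy hz]
    have a := mul_le_mul_of_nonneg_left B (show 0 ≤ τ ^ 3 * f z ^ 2 by positivity)
    have e : τ ^ 3 * f z ^ 2 * -(C₃ * (ε * (uu z * ps z ^ 2 + t ^ 2))) =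
        -(C₃ * ε * (τ ^ 3 * (uu z * ps z ^ 2) * f z ^ 2 + τ * (τ * t) ^ 2 * f z ^ 2)) := by ring
    rw [e, hτt] at a
    linarith
  -- assembly
  have hN : Nc τ f z = (τ ^ 3 * (uu z * ps z ^ 2) * f z ^ 2 + τ * f z ^ 2)
      + (τ * Hm f z + τ * ps z * g2 f z + g2 f z) := by
    unfold Nc; ring
  have hq : qC s₁ s₂ τ f z = τ * (Gx s₁ f f z + Gy s₂ f f z - 4 * Gm s₁ s₂ f f z)
      + τ * c0 * f z ^ 2 + τ ^ 3 * (Gax s₁ uu (fun z => Fxs s₁ z - Fys s₂ z) z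
        - Gay s₂ uu (fun z => Fxs s₁ z - Fys s₂ z) z) * f z ^ 2 := rfl
  rw [hq, hN]
  have n1 : 0 ≤ τ ^ 3 * (uu z * ps z ^ 2) * f z ^ 2 + τ * f z ^ 2 := by positivity
  have n2 : 0 ≤ τ * Hm f z + τ * ps z * g2 f z + g2 f z := by
    rw [hHm]
    have := mul_nonneg hτ0.le hH0
    positivity
  have m1 : 0 ≤ 61 * C₁ * ε * (τ ^ 3 * (uu z * ps z ^ 2) * f z ^ 2 + τ * f z ^ 2) := by positivity
  have m2 : 0 ≤ (8 * C₀ + C₃) * ε * (τ * Hm f z + τ * ps z * g2 f z + g2 f z) := by positivity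
  linarith

end Vale.Agent.P088.HY.H856
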