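import Vale.Agent.P088.R2.H856.Alg

/-!
# P088, row EQC: the Hessian forms `Gx`, `Gy` at a point
-/

open MeasureTheory Set Filter
open scoped ContDiff Matrix Topology

noncomputable section

namespace Vale.Agent.P088.HY.H856

open Vale.Agent.P088.LR

variable {n : ℕ}

lemma su_s1 {s : MF n} (hs : SmM s) (k l : Fin n) : SU (fun z : VV n => s z.1 k l) :=
  ((hs k l).comp contDiff_fst).contDiffOn

lemma su_s2 {s : MF n} (hs : SmM s) (k l : Fin n) : SU (fun z : VV n => s z.2 k l) :=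
  ((hs k l).comp contDiff_snd).contDiffOn

/-- The entries of `s(x)`. -/
def sm (s : MF n) (x : V n) (i j : Fin n) : ℝ := s x i j

/-- `A_j s_kl`. -/
def d1 (s : MF n) (z : VV n) (j k l : Fin n) : ℝ := Ax j (fun z => s z.1 k l) z

/-- `B_j s_kl`. -/
def d2 (s : MF n) (z : VV n) (j k l : Fin n) : ℝ := By j (fun z => s z.2 k l) z

lemma su_Gax {s : MF n} (hs : SmM s) {f h : VV n → ℝ} (hf : SU f) (hh : SU h) :
    SU (Gax s f h) :=
  ContDiffOn.sum fun i _ => ContDiffOn.sum fun j _ => ((su_s1 hs i j).mul (su_Ax hf i)).mul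
    (su_Ax hh j)

lemma su_Gay {s : MF n} (hs : SmM s) {f h : VV n → ℝ} (hf : SU f) (hh : SU h) :
    SU (Gay s f h) :=
  ContDiffOn.sum fun i _ => ContDiffOn.sum fun j _ => ((su_s2 hs i j).mul (su_By hf i)).mul
    (su_By hh j)

lemma Dr_form {ρ : VV n → ℝ} {e : VV n} {S : Fin n → Fin n → VV n → ℝ}
    {F H : Fin n → VV n → ℝ} (hS : ∀ k l, SU (S k l)) (hF : ∀ k, SU (F k)) (hH : ∀ l, SU (H l))
    {z : VV n} (hz : z ∈ Un n) :
    Dr ρ e (fun z => ∑ k, ∑ l, S k l z * F k z * H l z) z =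
      ∑ k, ∑ l, (Dr ρ e (S k l) z * F k z * H l z + S k l z * Dr ρ e (F k) z * H l z
        + S k l z * F k z * Dr ρ e (H l) z) := by
  rw [Dr_sum Finset.univ (F := fun k z => ∑ l, S k l z * F k z * H l z)
    (fun k => ContDiffOn.sum fun l _ => ((hS k l).mul (hF k)).mul (hH l)) hz]
  refine Finset.sum_congr rfl fun k _ => ?_
  rw [Dr_sum Finset.univ (F := fun l z => S k l z * F k z * H l z)
    (fun l => ((hS k l).mul (hF k)).mul (hH l)) hz]
  refine Finset.sum_congr rfl fun l _ => ?_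
  rw [Dr_mul ((hS k l).mul (hF k)) (hH l) hz, Dr_mul (hS k l) (hF k) hz]
  ring

lemma Ax_Gax {s : MF n} (hs : SmM s) {f h : VV n → ℝ} (hf : SU f) (hh : SU h) {z : VV n}
    (hz : z ∈ Un n) (j : Fin n) :
    Ax j (Gax s f h) z = ∑ k, ∑ l, (d1 s z j k l * Ax k f z * Ax l h z
      + sm s z.1 k l * Ax j (Ax k f) z * Ax l h z + sm s z.1 k l * Ax k f z * Ax j (Ax l h) z) :=
  Dr_form (ρ := r1) (e := (Pi.single j 1, 0)) (S := fun k l z => sm s z.1 k l)
    (F := fun k => Ax k f) (H := fun l => Ax l h) (su_s1 hs) (su_Ax hf) (su_Ax hh) hz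

lemma By_Gay {s : MF n} (hs : SmM s) {f h : VV n → ℝ} (hf : SU f) (hh : SU h) {z : VV n}
    (hz : z ∈ Un n) (j : Fin n) :
    By j (Gay s f h) z = ∑ k, ∑ l, (d2 s z j k l * By k f z * By l h z
      + sm s z.2 k l * By j (By k f) z * By l h z + sm s z.2 k l * By k f z * By j (By l h) z) :=
  Dr_form (ρ := r2) (e := (0, Pi.single j 1)) (S := fun k l z => sm s z.2 k l)
    (F := fun k => By k f) (H := fun l => By l h) (su_s2 hs) (su_By hf) (su_By hh) hz

/-- The form `Gx` at a point. -/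
lemma Gx_eq {s : MF n} (hs : SmM s) (sy : ∀ x, (s x).IsSymm) {f h : VV n → ℝ} (hf : SU f)
    (hh : SU h) {z : VV n} (hz : z ∈ Un n) :
    Gx s f h z = HG (sm s z.1) (d1 s z) (uu z - xa z) z.1 (fun i => al i z) (fun i => Ax i f z)
      (fun i => Ax i h z) := by
  have h1 : ∀ i j, sm s z.1 i j = sm s z.1 j i := fun i j => (sy z.1).apply j i
  have key := alg_G (s := sm s z.1) h1 (ds := d1 s z) (w := uu z - xa z) (x := z.1)
    (al := fun i => al i z) (xi := fun i => Ax i f z) (et := fun i => Ax i h z)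
    (a := fun j k => Ax j (al k) z) (Hf := fun j l => Ax j (Ax l f) z)
    (Hh := fun j l => Ax j (Ax l h) z) (fun j k => Ax_al hz j k)
    (fun j l => Ax_comm hf hz j l) (fun j l => Ax_comm hh hz j l)
  rw [← key]
  unfold Gx
  have g1 : Gax s f (Gax s uu h) z = ∑ i, ∑ j, sm s z.1 i j * Ax i f z * Ax j (Gax s uu h) z := rfl
  have g2 : Gax s h (Gax s uu f) z = ∑ i, ∑ j, sm s z.1 i j * Ax i h z * Ax j (Gax s uu f) z := rfl
  have g3 : Gax s uu (Gax s f h) z = ∑ i, ∑ j, sm s z.1 i j * al i z * Ax j (Gax s f h) z := rfl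
  rw [g1, g2, g3]
  simp only [Ax_Gax hs su_uu hh hz, Ax_Gax hs su_uu hf hz, Ax_Gax hs hf hh hz]
  rfl

/-- The form `Gy` at a point. -/
lemma Gy_eq {s : MF n} (hs : SmM s) (sy : ∀ x, (s x).IsSymm) {f h : VV n → ℝ} (hf : SU f)
    (hh : SU h) {z : VV n} (hz : z ∈ Un n) :
    Gy s f h z = HG (sm s z.2) (d2 s z) (uu z - yb z) z.2 (fun i => be i z) (fun i => By i f z)
      (fun i => By i h z) := by
  have h1 : ∀ i j, sm s z.2 i j = sm s z.2 j i := fun i j => (sy z.2).apply j i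
  have key := alg_G (s := sm s z.2) h1 (ds := d2 s z) (w := uu z - yb z) (x := z.2)
    (al := fun i => be i z) (xi := fun i => By i f z) (et := fun i => By i h z)
    (a := fun j k => By j (be k) z) (Hf := fun j l => By j (By l f) z)
    (Hh := fun j l => By j (By l h) z) (fun j k => By_be hz j k)
    (fun j l => By_comm hf hz j l) (fun j l => By_comm hh hz j l)
  rw [← key]
  unfold Gy
  have g1 : Gay s f (Gay s uu h) z = ∑ i, ∑ j, sm s z.2 i j * By i f z * By j (Gay s uu h) z := rfl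
  have g2 : Gay s h (Gay s uu f) z = ∑ i, ∑ j, sm s z.2 i j * By i h z * By j (Gay s uu f) z := rfl
  have g3 : Gay s uu (Gay s f h) z = ∑ i, ∑ j, sm s z.2 i j * be i z * By j (Gay s f h) z := rfl
  rw [g1, g2, g3]
  simp only [By_Gay hs su_uu hh hz, By_Gay hs su_uu hf hz, By_Gay hs hf hh hz]
  rfl

/-- `s(u, F_x) = G_x(u, u)`. -/
lemma Gax_Fxs (s : MF n) (z : VV n) : Gax s uu (Fxs s) z = Gx s uu uu z := by
  have h : Fxs s = Gax s uu uu := rfl
  rw [h]
  unfold Gx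
  ring

lemma Gay_Fys (s : MF n) (z : VV n) : Gay s uu (Fys s) z = Gy s uu uu z := by
  have h : Fys s = Gay s uu uu := rfl
  rw [h]
  unfold Gy
  ring

lemma By_s1 {s : MF n} (z : VV n) (j k l : Fin n) : By j (fun z => sm s z.1 k l) z = 0 := by
  show rr z.2 * dy j (fun z => sm s z.1 k l) z = 0
  rw [dy_comp_fst (fun x => sm s x k l) z j, mul_zero]

lemma Ax_s2 {s : MF n} (z : VV n) (j k l : Fin n) : Ax j (fun z => sm s z.2 k l) z = 0 := by
  show rr z.1 * dx j (fun z => sm s z.2 k l) z = 0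
  rw [dx_comp_snd (fun x => sm s x k l) z j, mul_zero]

/-- `B_j F_x = 2 m^T s α`. -/
lemma By_Fxs {s : MF n} (hs : SmM s) (sy : ∀ x, (s x).IsSymm) {z : VV n} (hz : z ∈ Un n)
    (j : Fin n) : By j (Fxs s) z = 2 * ∑ i, mv (sm s z.1) (fun k => al k z) i * mm i j z := by
  have h1 : ∀ i j, sm s z.1 i j = sm s z.1 j i := fun i j => (sy z.1).apply j i
  have e : By j (Fxs s) z = ∑ k, ∑ l, (By j (fun z => sm s z.1 k l) z * al k z * al l z
      + sm s z.1 k l * By j (al k) z * al l z + sm s z.1 k l * al k z * By j (al l) z) :=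
    Dr_form (ρ := r2) (e := (0, Pi.single j 1)) (S := fun k l z => sm s z.1 k l)
      (F := fun k => al k) (H := fun l => al l) (su_s1 hs) su_al su_al hz
  have e1 : ∀ k l, By j (fun z => sm s z.1 k l) z = 0 := fun k l => By_s1 z j k l
  have e0 : ∀ k, By j (al k) z = mm k j z := fun k => By_al hz k j
  have e2 := inner_eq (s := sm s z.1) h1 (fun k l => By j (fun z => sm s z.1 k l) z) (fun k => al k z)
    (fun k => al k z) (fun k => By j (al k) z) (fun k => By j (al k) z)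
  have e3 : bf (fun k l => By j (fun z => sm s z.1 k l) z) (fun k => al k z) (fun k => al k z) =
      0 := by
    unfold bf
    refine Finset.sum_eq_zero fun k _ => Finset.sum_eq_zero fun l _ => ?_
    simp only [e1 k l]
    ring
  refine e.trans (e2.trans ?_)
  rw [e3, ip_comm (fun k => By j (al k) z)]
  simp only [e0]
  unfold ip
  ring

/-- `A_j F_y = 2 m s β`. -/
lemma Ax_Fys {s : MF n} (hs : SmM s) (sy : ∀ x, (s x).IsSymm) {z : VV n} (hz : z ∈ Un n)
    (j : Fin n) : Ax j (Fys s) z = 2 * ∑ i, mv (sm s z.2) (fun k => be k z) i * mm j i z := by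
  have h1 : ∀ i j, sm s z.2 i j = sm s z.2 j i := fun i j => (sy z.2).apply j i
  have e : Ax j (Fys s) z = ∑ k, ∑ l, (Ax j (fun z => sm s z.2 k l) z * be k z * be l z
      + sm s z.2 k l * Ax j (be k) z * be l z + sm s z.2 k l * be k z * Ax j (be l) z) :=
    Dr_form (ρ := r1) (e := (Pi.single j 1, 0)) (S := fun k l z => sm s z.2 k l)
      (F := fun k => be k) (H := fun l => be l) (su_s2 hs) su_be su_be hz
  have e1 : ∀ k l, Ax j (fun z => sm s z.2 k l) z = 0 := fun k l => Ax_s2 z j k l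
  have e0 : ∀ k, Ax j (be k) z = mm j k z := fun k => rfl
  have e2 := inner_eq (s := sm s z.2) h1 (fun k l => Ax j (fun z => sm s z.2 k l) z) (fun k => be k z)
    (fun k => be k z) (fun k => Ax j (be k) z) (fun k => Ax j (be k) z)
  have e3 : bf (fun k l => Ax j (fun z => sm s z.2 k l) z) (fun k => be k z) (fun k => be k z) =
      0 := by
    unfold bf
    refine Finset.sum_eq_zero fun k _ => Finset.sum_eq_zero fun l _ => ?_
    simp only [e1 k l]
    ring
  refine e.trans (e2.trans ?_)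
  rw [e3, ip_comm (fun k => Ax j (be k) z)]
  simp only [e0]
  unfold ip
  ring

/-- `v · m w`. -/
def mf (z : VV n) (v w : Fin n → ℝ) : ℝ := ∑ i, ∑ k, v i * mm i k z * w k

/-- `G_m(f, h) = (s₁ A f) · m (s₂ B h)`. -/
lemma Gm_eq {s₁ s₂ : MF n} (sy₂ : ∀ x, (s₂ x).IsSymm) (f h : VV n → ℝ) (z : VV n)
    (sy₁ : ∀ x, (s₁ x).IsSymm) :
    Gm s₁ s₂ f h z = mf z (mv (sm s₁ z.1) fun i => Ax i f z) (mv (sm s₂ z.2) fun i => By i h z) := by
  have h1 : ∀ i j, sm s₁ z.1 i j = sm s₁ z.1 j i := fun i j => (sy₁ z.1).apply j i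
  have h2 : ∀ i j, sm s₂ z.2 i j = sm s₂ z.2 j i := fun i j => (sy₂ z.2).apply j i
  have e : Gm s₁ s₂ f h z = ∑ i, ∑ j, ∑ k, ∑ l, sm s₁ z.1 i j * Ax j f z * mm i k z *
      sm s₂ z.2 k l * By l h z := rfl
  rw [e]
  unfold mf mv
  refine Finset.sum_congr rfl fun i _ => ?_
  rw [Finset.sum_comm]
  refine Finset.sum_congr rfl fun k _ => ?_
  rw [Finset.sum_mul, Finset.sum_mul]
  refine Finset.sum_congr rfl fun j _ => ?_
  rw [Finset.mul_sum]
  refine Finset.sum_congr rfl fun l _ => ?_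
  rw [h1 i j, h2 k l]
  ring

lemma Gax_Fys {s₁ s₂ : MF n} (hs₂ : SmM s₂) (sy₂ : ∀ x, (s₂ x).IsSymm) {z : VV n}
    (hz : z ∈ Un n) : Gax s₁ uu (Fys s₂) z =
      2 * mf z (mv (sm s₁ z.1) fun i => al i z) (mv (sm s₂ z.2) fun i => be i z) := by
  have e : Gax s₁ uu (Fys s₂) z = ip (mv (sm s₁ z.1) fun i => al i z) (fun j => Ax j (Fys s₂) z) :=
    sum_mv (sm s₁ z.1) (fun i => al i z) (fun j => Ax j (Fys s₂) z)
  rw [e]
  unfold ip mf
  rw [Finset.mul_sum]
  refine Finset.sum_congr rfl fun i _ => ?_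
  show _ * Ax i (Fys s₂) z = _
  rw [Ax_Fys hs₂ sy₂ hz, Finset.mul_sum, Finset.mul_sum, Finset.mul_sum]
  refine Finset.sum_congr rfl fun k _ => ?_
  ring

lemma Gay_Fxs {s₁ s₂ : MF n} (hs₁ : SmM s₁) (sy₁ : ∀ x, (s₁ x).IsSymm) {z : VV n}
    (hz : z ∈ Un n) : Gay s₂ uu (Fxs s₁) z =
      2 * mf z (mv (sm s₁ z.1) fun i => al i z) (mv (sm s₂ z.2) fun i => be i z) := by
  have e : Gay s₂ uu (Fxs s₁) z = ip (mv (sm s₂ z.2) fun i => be i z) (fun j => By j (Fxs s₁) z) :=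
    sum_mv (sm s₂ z.2) (fun i => be i z) (fun j => By j (Fxs s₁) z)
  rw [e]
  unfold ip mf
  rw [Finset.sum_comm, Finset.mul_sum]
  refine Finset.sum_congr rfl fun i _ => ?_
  show _ * By i (Fxs s₁) z = _
  rw [By_Fxs hs₁ sy₁ hz, Finset.mul_sum, Finset.mul_sum, Finset.mul_sum]
  refine Finset.sum_congr rfl fun k _ => ?_
  ring

end Vale.Agent.P088.HY.H856
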