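import Vale.Agent.P088.R2.H856.Pt

/-!
# P088, row EQC: the forms near the diagonal
-/

open MeasureTheory Set Filter
open scoped ContDiff Matrix Topology

noncomputable section

namespace Vale.Agent.P088.HY.H856

open Vale.Agent.P088.LR

variable {n : ℕ}

lemma abs_mul_le' {p q A B : ℝ} (hp : |p| ≤ A) (hq : |q| ≤ B) : |p * q| ≤ A * B := by
  rw [abs_mul]
  exact mul_le_mul hp hq (abs_nonneg _) ((abs_nonneg _).trans hp)

lemma Hb_id {z : VV n} (hz : z ∈ Un n) (xi et xi' et' : Fin n → ℝ) :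
    Hb z xi et xi' et' = uu z * ip (xi + et) (xi' + et')
      - (uu z - 1) * (ip xi et' + ip xi' et)
      + (uu z - 1) * (ip z.1 xi * ip z.2 et' + ip z.1 xi' * ip z.2 et)
      - (ip z.1 (xi + et) * ip (vB z) et' + ip (vA z) (xi + et) * ip z.2 et'
        + ip z.1 (xi' + et') * ip (vB z) et + ip (vA z) (xi' + et') * ip z.2 et
        - ip z.1 et * ip (vA z + vB z) et' + ip (vA z) et' * ip (z.1 - z.2) et
        - ip z.1 et' * ip (vA z + vB z) et + ip (vA z) et * ip (z.1 - z.2) et') := by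
  unfold Hb
  rw [mf_eq hz, mf_eq hz]
  simp only [ip_add_left, ip_add_right, ip_sub_left]
  rw [ip_comm et xi', ip_comm et et']
  ring

lemma Hb_near {z : VV n} (hz : z ∈ Un n) (xi et xi' et' : Fin n → ℝ) :
    |Hb z xi et xi' et' - uu z * ip (xi + et) (xi' + et')| ≤
      2 * gg z * (nr (xi + et) * nr et' + nr (xi' + et') * nr et)
      + 12 * (uu z - 1) * (nr et * nr et')
      + 2 * (uu z - 1) * (nr xi * nr et' + nr xi' * nr et) := by
  have h0 := one_le_uu hz
  have hx := nr_x_le hz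
  have hy := nr_y_le hz
  have hg := gg_nonneg z
  have hab := nr_ab_le hz
  have hrg := rh_gg hz
  have hr := rh_nonneg z
  have px : ∀ w, |ip z.1 w| ≤ nr w := fun w => (abs_ip_le _ _).trans
    (mul_le_of_le_one_left (nr_nonneg w) hx)
  have py : ∀ w, |ip z.2 w| ≤ nr w := fun w => (abs_ip_le _ _).trans
    (mul_le_of_le_one_left (nr_nonneg w) hy)
  have pa : ∀ w, |ip (vA z) w| ≤ gg z * nr w := fun w => abs_ip_le _ _
  have pb : ∀ w, |ip (vB z) w| ≤ gg z * nr w := fun w => by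
    have := abs_ip_le (vB z) w
    rwa [nr_B hz] at this
  have pab : ∀ w, |ip (vA z + vB z) w| ≤ 2 * (uu z - 1) * nr w := fun w =>
    (abs_ip_le _ _).trans (mul_le_mul_of_nonneg_right hab (nr_nonneg w))
  have pxy : ∀ w, |ip (z.1 - z.2) w| ≤ rh z * nr w := fun w => abs_ip_le _ _
  have t1 := abs_le.1 (abs_mul_le' (px (xi + et)) (pb et'))
  have t2 := abs_le.1 (abs_mul_le' (pa (xi + et)) (py et'))
  have t3 := abs_le.1 (abs_mul_le' (px (xi' + et')) (pb et))
  have t4 := abs_le.1 (abs_mul_le' (pa (xi' + et')) (py et))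
  have t5 := abs_le.1 (abs_mul_le' (px et) (pab et'))
  have t7 := abs_le.1 (abs_mul_le' (px et') (pab et))
  have e6 : rh z * gg z * (nr et * nr et') ≤ 4 * (uu z - 1) * (nr et * nr et') :=
    mul_le_mul_of_nonneg_right hrg (mul_nonneg (nr_nonneg _) (nr_nonneg _))
  have t6 : |ip (vA z) et' * ip (z.1 - z.2) et| ≤ 4 * (uu z - 1) * (nr et * nr et') := by
    refine (abs_mul_le' (pa et') (pxy et)).trans ?_
    calc _ = rh z * gg z * (nr et * nr et') := by ring
      _ ≤ _ := e6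
  have t8 : |ip (vA z) et * ip (z.1 - z.2) et'| ≤ 4 * (uu z - 1) * (nr et * nr et') := by
    refine (abs_mul_le' (pa et) (pxy et')).trans ?_
    calc _ = rh z * gg z * (nr et * nr et') := by ring
      _ ≤ _ := e6
  have t6' := abs_le.1 t6
  have t8' := abs_le.1 t8
  have hu : 0 ≤ uu z - 1 := by linarith
  have s1 : |(uu z - 1) * (ip xi et' + ip xi' et)| ≤
      (uu z - 1) * (nr xi * nr et' + nr xi' * nr et) := by
    rw [abs_mul, abs_of_nonneg hu]
    exact mul_le_mul_of_nonneg_left ((abs_add_le _ _).trans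
      (add_le_add (abs_ip_le _ _) (abs_ip_le _ _))) hu
  have s2 : |(uu z - 1) * (ip z.1 xi * ip z.2 et' + ip z.1 xi' * ip z.2 et)| ≤
      (uu z - 1) * (nr xi * nr et' + nr xi' * nr et) := by
    rw [abs_mul, abs_of_nonneg hu]
    exact mul_le_mul_of_nonneg_left ((abs_add_le _ _).trans
      (add_le_add (abs_mul_le' (px xi) (py et')) (abs_mul_le' (px xi') (py et)))) hu
  have s1' := abs_le.1 s1
  have s2' := abs_le.1 s2
  rw [Hb_id hz]
  apply abs_le.2
  constructor <;> linarith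

/-- Arithmetic-geometric mean with the weights `u`, `ψ`. -/
lemma amgm {z : VV n} (hz : z ∈ Un n) (a b : ℝ) :
    2 * (gg z * (a * b)) ≤ uu z * a ^ 2 + ps z * b ^ 2 := by
  have h0 : 0 < uu z := lt_of_lt_of_le one_pos (one_le_uu hz)
  have h1 := gg_sq' hz
  have e : uu z * a ^ 2 + ps z * b ^ 2 - 2 * (gg z * (a * b)) =
      (uu z)⁻¹ * (uu z * a - gg z * b) ^ 2 := by
    have : (uu z * a - gg z * b) ^ 2 = uu z ^ 2 * a ^ 2 - 2 * uu z * (gg z * (a * b))
        + gg z ^ 2 * b ^ 2 := by ring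
    rw [this, h1]
    field_simp
    ring
  have : 0 ≤ (uu z)⁻¹ * (uu z * a - gg z * b) ^ 2 := by positivity
  linarith

/-- `u |ξ + η|² ≤ 2 H_- + 60 ψ (|ξ|² + |η|²)`. -/
lemma uz_le {z : VV n} (hz : z ∈ Un n) (xi et : Fin n → ℝ) :
    uu z * nr (xi + et) ^ 2 ≤ 2 * Hb z xi et xi et + 60 * (ps z * (nr xi ^ 2 + nr et ^ 2)) := by
  have h := (abs_le.1 (Hb_near hz xi et xi et)).1
  rw [← nr_sq] at h
  have h0 := one_le_uu hz
  have hp := ps_nonneg hz
  have hup := um_le_ps hz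
  have a1 := amgm hz (nr (xi + et) / 2) (4 * nr et)
  have a2 : (uu z - 1) * (nr et * nr et) ≤ ps z * (nr et * nr et) :=
    mul_le_mul_of_nonneg_right hup (mul_nonneg (nr_nonneg _) (nr_nonneg _))
  have a3 : (uu z - 1) * (nr xi * nr et) ≤ ps z * (nr xi * nr et) :=
    mul_le_mul_of_nonneg_right hup (mul_nonneg (nr_nonneg _) (nr_nonneg _))
  have a4 : ps z * (2 * (nr xi * nr et)) ≤ ps z * (nr xi ^ 2 + nr et ^ 2) :=
    mul_le_mul_of_nonneg_left (by nlinarith [sq_nonneg (nr xi - nr et)]) hp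
  have a5 : 0 ≤ uu z * nr (xi + et) ^ 2 := by positivity
  have a6 : 0 ≤ ps z * nr xi ^ 2 := by positivity
  linarith

end Vale.Agent.P088.HY.H856
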