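import Vale.Agent.P088.R2.H856.Bnd

/-!
# P088, row EQC: the geometry of `u` near the diagonal, the form `H_-`
-/

open MeasureTheory Set Filter
open scoped ContDiff Matrix Topology

noncomputable section

namespace Vale.Agent.P088.HY.H856

open Vale.Agent.P088.LR

variable {n : ℕ}

/-- The vector `α`. -/
def vA (z : VV n) : Fin n → ℝ := fun i => al i z

/-- The vector `β`. -/
def vB (z : VV n) : Fin n → ℝ := fun i => be i z

/-- `√(u² - 1)`. -/
def gg (z : VV n) : ℝ := nr (vA z)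

lemma ip_AA {z : VV n} (hz : z ∈ Un n) : ip (vA z) (vA z) = uu z ^ 2 - 1 := sum_al_sq hz

lemma ip_BB {z : VV n} (hz : z ∈ Un n) : ip (vB z) (vB z) = uu z ^ 2 - 1 := sum_be_sq hz

lemma nr_B {z : VV n} (hz : z ∈ Un n) : nr (vB z) = gg z := by
  unfold gg nr
  rw [ip_AA hz, ip_BB hz]

lemma gg_nonneg (z : VV n) : 0 ≤ gg z := nr_nonneg _

lemma gg_sq {z : VV n} (hz : z ∈ Un n) : gg z ^ 2 = uu z ^ 2 - 1 := by
  unfold gg; rw [nr_sq, ip_AA hz]

lemma gg_sq' {z : VV n} (hz : z ∈ Un n) : gg z ^ 2 = uu z * ps z := by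
  have h := (lt_of_lt_of_le one_pos (one_le_uu hz)).ne'
  rw [gg_sq hz]; unfold ps; field_simp

lemma ps_nonneg {z : VV n} (hz : z ∈ Un n) : 0 ≤ ps z := by
  have h := one_le_uu hz
  unfold ps
  have : (uu z)⁻¹ ≤ 1 := inv_le_one_of_one_le₀ h
  linarith

lemma um_le_ps {z : VV n} (hz : z ∈ Un n) : uu z - 1 ≤ ps z := by
  have h := one_le_uu hz
  unfold ps
  have : (uu z)⁻¹ ≤ 1 := inv_le_one_of_one_le₀ h
  linarith

lemma gg_le_uu {z : VV n} (hz : z ∈ Un n) : gg z ≤ uu z := by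
  have h := one_le_uu hz
  apply abs_le_of_sq_le_sq' _ (by linarith) |>.2
  rw [gg_sq hz]; linarith

lemma ip_lin (z : VV n) (p q p' q' : ℝ) :
    ip (fun j => p * z.1 j + q * z.2 j) (fun j => p' * z.1 j + q' * z.2 j) =
      p * p' * (1 - 2 * r1 z) + (p * q' + q * p') * xy z + q * q' * (1 - 2 * r2 z) :=
  sum_lin z p q p' q'

lemma nr_x_le {z : VV n} (hz : z ∈ Un n) : nr z.1 ≤ 1 := by
  apply Real.sqrt_le_one.2 |> fun h => h
  have h : ip z.1 z.1 = 1 - 2 * r1 z := sum_xx z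
  rw [h]
  have := r1_pos hz
  linarith

lemma nr_y_le {z : VV n} (hz : z ∈ Un n) : nr z.2 ≤ 1 := by
  apply Real.sqrt_le_one.2 |> fun h => h
  have h : ip z.2 z.2 = 1 - 2 * r2 z := sum_yy z
  rw [h]
  have := r2_pos hz
  linarith

lemma ip_ab {z : VV n} (hz : z ∈ Un n) :
    ip (vA z + vB z) (vA z + vB z) = (uu z - 1) ^ 2 * (4 - 4 * r1 z - 4 * r2 z
      - 2 * r1 z * r2 z * (uu z - 1)) - 2 * (uu z - 1) * ((r1 z - r2 z) ^ 2 / (r1 z * r2 z)) := by
  have h1 := (r1_pos hz).ne'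
  have h2 := (r2_pos hz).ne'
  have e : vA z + vB z = fun j => (((r2 z)⁻¹ + (uu z - 1)) - (r1 z)⁻¹) * z.1 j
      + (((r1 z)⁻¹ + (uu z - 1)) - (r2 z)⁻¹) * z.2 j := by
    funext j
    show al j z + be j z = _
    rw [al_lin hz, be_lin hz]
    ring
  rw [e, ip_lin, xy_eq hz]
  field_simp
  ring

lemma nr_ab_le {z : VV n} (hz : z ∈ Un n) : nr (vA z + vB z) ≤ 2 * (uu z - 1) := by
  have h0 := one_le_uu hz
  have h1 := r1_pos hz
  have h2 := r2_pos hz
  apply abs_le_of_sq_le_sq' _ (by linarith) |>.2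
  rw [nr_sq, ip_ab hz]
  have hU : 0 ≤ uu z - 1 := by linarith
  have a1 : 0 ≤ 2 * (uu z - 1) * ((r1 z - r2 z) ^ 2 / (r1 z * r2 z)) := by positivity
  have a2 : 0 ≤ (uu z - 1) ^ 2 * (4 * r1 z + 4 * r2 z + 2 * r1 z * r2 z * (uu z - 1)) := by
    positivity
  nlinarith

/-- `|x - y|`. -/
def rh (z : VV n) : ℝ := nr (z.1 - z.2)

lemma rh_nonneg (z : VV n) : 0 ≤ rh z := nr_nonneg _

lemma rh_sq {z : VV n} (hz : z ∈ Un n) : rh z ^ 2 = 2 * r1 z * r2 z * (uu z - 1) := by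
  unfold rh
  rw [nr_sq, ← qq_eq hz]
  unfold qq sq ip
  exact Finset.sum_congr rfl fun i _ => (pow_two _).symm

lemma rh_le {z : VV n} (hz : z ∈ Un n) : rh z ≤ 2 := by
  have h : rh z = nr (z.1 + (-1 : ℝ) • z.2) := by
    unfold rh; congr 1; funext i; simp; ring
  have h2 : nr ((-1 : ℝ) • z.2) = nr z.2 := by
    unfold nr ip; congr 1
    exact Finset.sum_congr rfl fun i _ => by simp
  rw [h]
  refine (nr_add_le _ _).trans ?_
  rw [h2]
  linarith [nr_x_le hz, nr_y_le hz]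

lemma rr_bd {z : VV n} (hz : z ∈ Un n) : 2 * r1 z * r2 z * uu z ≤ 5 := by
  have h := rh_sq hz
  have h1 := r1_pos hz
  have h2 := r2_pos hz
  have h3 : r1 z ≤ 1 / 2 := rr_le _
  have h4 : r2 z ≤ 1 / 2 := rr_le _
  have h5 := rh_le hz
  have h6 := rh_nonneg z
  have h7 : r1 z * r2 z ≤ 1 / 2 * (1 / 2) := mul_le_mul h3 h4 h2.le (by norm_num)
  nlinarith

lemma rh_sq_uu {z : VV n} (hz : z ∈ Un n) : rh z ^ 2 * uu z ≤ 5 * (uu z - 1) := by
  have h := one_le_uu hz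
  rw [rh_sq hz]
  have := mul_le_mul_of_nonneg_right (rr_bd hz) (show 0 ≤ uu z - 1 by linarith)
  linarith

lemma rh_gg {z : VV n} (hz : z ∈ Un n) : rh z * gg z ≤ 4 * (uu z - 1) := by
  have h := one_le_uu hz
  apply abs_le_of_sq_le_sq' _ (by linarith) |>.2
  rw [mul_pow, rh_sq hz, gg_sq hz]
  have h1 := r1_pos hz
  have h2 := r2_pos hz
  have h3 := rr_bd hz
  have h4 : 2 * r1 z * r2 z ≤ 2 * r1 z * r2 z * uu z := le_mul_of_one_le_right (by positivity) h
  have h5 : 0 ≤ (uu z - 1) ^ 2 := sq_nonneg _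
  have h6 : 2 * r1 z * r2 z * (uu z - 1) * (uu z ^ 2 - 1) =
    (2 * r1 z * r2 z * uu z + 2 * r1 z * r2 z) * (uu z - 1) ^ 2 := by ring
  rw [h6]
  calc _ ≤ (5 + 5) * (uu z - 1) ^ 2 := mul_le_mul_of_nonneg_right (by linarith) h5
    _ ≤ _ := by nlinarith

/-! ### The form `m` -/

lemma mf_eq {z : VV n} (hz : z ∈ Un n) (v w : Fin n → ℝ) :
    mf z v w = -ip v w + ip z.1 v * ip (vB z) w + ip (vA z) v * ip z.2 w
      - (uu z - 1) * (ip z.1 v * ip z.2 w) := by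
  have h : ∀ i k, v i * mm i k z * w k = -(kd i k * (v i * w k)) + (z.1 i * v i) * (be k z * w k)
      + (al i z * v i) * (z.2 k * w k) - (uu z - 1) * ((z.1 i * v i) * (z.2 k * w k)) := by
    intro i k
    rw [mm_eq hz]
    ring
  unfold mf
  simp only [h, Finset.sum_add_distrib, Finset.sum_sub_distrib, Finset.sum_neg_distrib,
    ← Finset.mul_sum, ← Finset.sum_mul]
  have h1 : ∑ i, ∑ k, kd i k * (v i * w k) = ip v w := by
    unfold ip
    exact Finset.sum_congr rfl fun i _ => sum_kd i fun k => v i * w k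
  rw [h1]
  rfl

/-- The bilinear form of `H_-`. -/
def Hb (z : VV n) (xi et xi' et' : Fin n → ℝ) : ℝ :=
  uu z * (ip xi xi' + ip et et') - mf z xi et' - mf z xi' et

lemma Hm_eq (f : VV n → ℝ) (z : VV n) :
    Hm f z = Hb z (fun i => Ax i f z) (fun i => By i f z) (fun i => Ax i f z)
      (fun i => By i f z) := by
  unfold Hm Hb g2 cr mf ip
  simp only [pow_two]
  ring

/-- `B_i`-vectors: the inner products of `α` and `x` with `w`. -/
lemma ip_x_of {z : VV n} (hz : z ∈ Un n) (w : Fin n → ℝ) :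
    ip z.1 w = (1 + r1 z * (uu z - 1)) * ip z.2 w - r1 z * ip (vB z) w := by
  have h1 := (r1_pos hz).ne'
  unfold ip
  rw [Finset.mul_sum, Finset.mul_sum, ← Finset.sum_sub_distrib]
  refine Finset.sum_congr rfl fun i _ => ?_
  show _ = _ - _ * (be i z * w i)
  rw [be_lin hz]
  field_simp
  ring

lemma ip_A_of {z : VV n} (hz : z ∈ Un n) (w : Fin n → ℝ) :
    ip (vA z) w = ((r2 z)⁻¹ + (uu z - 1)) * ip z.1 w - (r2 z)⁻¹ * ip z.2 w := by
  unfold ip
  rw [Finset.mul_sum, Finset.mul_sum, ← Finset.sum_sub_distrib]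
  refine Finset.sum_congr rfl fun i _ => ?_
  show al i z * w i = _
  rw [al_lin hz]
  ring

/-- `m w`. -/
def mw (z : VV n) (w : Fin n → ℝ) (i : Fin n) : ℝ := ∑ k, mm i k z * w k

lemma mf_mw (z : VV n) (v w : Fin n → ℝ) : mf z v w = ip v (mw z w) := by
  unfold mf ip mw
  refine Finset.sum_congr rfl fun i _ => ?_
  rw [Finset.mul_sum]
  exact Finset.sum_congr rfl fun k _ => by ring

lemma mw_eq {z : VV n} (hz : z ∈ Un n) (w : Fin n → ℝ) (i : Fin n) :
    mw z w i = -w i + (ip (vB z) w - (uu z - 1) * ip z.2 w) * z.1 i + ip z.2 w * al i z := by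
  have h : ∀ k, mm i k z * w k = -(kd i k * w k) + z.1 i * (be k z * w k)
      + al i z * (z.2 k * w k) - (uu z - 1) * z.1 i * (z.2 k * w k) := by
    intro k
    rw [mm_eq hz]
    ring
  unfold mw
  simp only [h, Finset.sum_add_distrib, Finset.sum_sub_distrib, Finset.sum_neg_distrib,
    ← Finset.mul_sum]
  rw [sum_kd i fun k => w k]
  show -w i + z.1 i * ip (vB z) w + al i z * ip z.2 w - (uu z - 1) * z.1 i * ip z.2 w = _
  ring

/-- `|m w|² = |w|² + (β · w)²`. -/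
lemma mw_sq {z : VV n} (hz : z ∈ Un n) (w : Fin n → ℝ) :
    ip (mw z w) (mw z w) = ip w w + ip (vB z) w ^ 2 := by
  have h1 := (r1_pos hz).ne'
  have h2 := (r2_pos hz).ne'
  set p := ip (vB z) w - (uu z - 1) * ip z.2 w with hp
  set q := ip z.2 w with hq
  have e : ip (mw z w) (mw z w) = ip w w + p ^ 2 * ip z.1 z.1 + q ^ 2 * ip (vA z) (vA z)
      - 2 * p * ip z.1 w - 2 * q * ip (vA z) w + 2 * p * q * ip z.1 (vA z) := by
    unfold ip
    simp only [Finset.mul_sum, ← Finset.sum_add_distrib, ← Finset.sum_sub_distrib]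
    refine Finset.sum_congr rfl fun i _ => ?_
    rw [mw_eq hz]
    show (-w i + p * z.1 i + q * al i z) * (-w i + p * z.1 i + q * al i z) = w i * w i +
      p ^ 2 * (z.1 i * z.1 i) + q ^ 2 * (al i z * al i z) - 2 * p * (z.1 i * w i) -
      2 * q * (al i z * w i) + 2 * p * q * (z.1 i * al i z)
    ring
  have e1 : ip z.1 z.1 = 1 - 2 * r1 z := sum_xx z
  have e2 : ip z.1 (vA z) = xa z := rfl
  rw [e, e1, ip_AA hz, e2, xa_eq hz, ip_A_of hz, ip_x_of hz, ← hq, hp]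
  field_simp
  ring

lemma abs_mf_le {z : VV n} (hz : z ∈ Un n) (v w : Fin n → ℝ) :
    |mf z v w| ≤ uu z * (nr v * nr w) := by
  have h0 := one_le_uu hz
  have h1 : nr (mw z w) ≤ uu z * nr w := by
    apply abs_le_of_sq_le_sq' _ (mul_nonneg (by linarith) (nr_nonneg w)) |>.2
    rw [nr_sq, mw_sq hz, mul_pow, nr_sq]
    have h2 : ip (vB z) w ^ 2 ≤ (gg z * nr w) ^ 2 := by
      apply sq_le_sq'
      · have := (abs_le.1 (abs_ip_le (vB z) w)).1
        rwa [nr_B hz] at this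
      · have := (abs_le.1 (abs_ip_le (vB z) w)).2
        rwa [nr_B hz] at this
    rw [mul_pow, gg_sq hz, nr_sq] at h2
    linarith
  rw [mf_mw]
  calc |ip v (mw z w)| ≤ nr v * nr (mw z w) := abs_ip_le _ _
    _ ≤ nr v * (uu z * nr w) := mul_le_mul_of_nonneg_left h1 (nr_nonneg v)
    _ = _ := by ring

/-- `H_- ≥ 0`. -/
lemma Hb_nonneg {z : VV n} (hz : z ∈ Un n) (xi et : Fin n → ℝ) : 0 ≤ Hb z xi et xi et := by
  have h0 := one_le_uu hz
  have h1 := (abs_le.1 (abs_mf_le hz xi et)).2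
  have h2 := nr_sq xi
  have h3 := nr_sq et
  unfold Hb
  rw [← h2, ← h3]
  have h4 : nr xi * nr et * 2 ≤ nr xi ^ 2 + nr et ^ 2 := by nlinarith [sq_nonneg (nr xi - nr et)]
  have h5 := mul_le_mul_of_nonneg_left h4 (show 0 ≤ uu z by linarith)
  linarith

end Vale.Agent.P088.HY.H856
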