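import Vale.Agent.P088.R2.H856.Gx

/-!
# P088, row EQC: the trilinear error form
-/

open MeasureTheory Set Filter
open scoped ContDiff Matrix Topology

noncomputable section

namespace Vale.Agent.P088.HY.H856

open Vale.Agent.P088.LR

variable {n : ℕ}

/-- The coefficients of the error form. -/
def KK (s : Fin n → Fin n → ℝ) (ds : Fin n → Fin n → Fin n → ℝ) (x : Fin n → ℝ)
    (a b c : Fin n) : ℝ :=
  -2 * (x a * ∑ j, s b j * s c j) + 2 * ((∑ j, x j * s a j) * s b c)
    + ((∑ j, s b j * ds j a c) + (∑ j, s c j * ds j a b) - ∑ j, s a j * ds j b c)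

/-- A trilinear form. -/
def tri (K : Fin n → Fin n → Fin n → ℝ) (al xi et : Fin n → ℝ) : ℝ :=
  ∑ a, ∑ b, ∑ c, K a b c * al a * xi b * et c

lemma tri_add (K L : Fin n → Fin n → Fin n → ℝ) (al xi et : Fin n → ℝ) :
    tri (fun a b c => K a b c + L a b c) al xi et = tri K al xi et + tri L al xi et := by
  unfold tri
  simp only [← Finset.sum_add_distrib]
  refine Finset.sum_congr rfl fun a _ => Finset.sum_congr rfl fun b _ =>
    Finset.sum_congr rfl fun c _ => ?_
  ring

lemma tri_sub (K L : Fin n → Fin n → Fin n → ℝ) (al xi et : Fin n → ℝ) :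
    tri (fun a b c => K a b c - L a b c) al xi et = tri K al xi et - tri L al xi et := by
  unfold tri
  simp only [← Finset.sum_sub_distrib]
  refine Finset.sum_congr rfl fun a _ => Finset.sum_congr rfl fun b _ =>
    Finset.sum_congr rfl fun c _ => ?_
  ring

lemma tri_smul (r : ℝ) (K : Fin n → Fin n → Fin n → ℝ) (al xi et : Fin n → ℝ) :
    tri (fun a b c => r * K a b c) al xi et = r * tri K al xi et := by
  unfold tri
  simp only [Finset.mul_sum]
  refine Finset.sum_congr rfl fun a _ => Finset.sum_congr rfl fun b _ =>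
    Finset.sum_congr rfl fun c _ => ?_
  ring

lemma ip_mv_mv (s : Fin n → Fin n → ℝ) (xi et : Fin n → ℝ) :
    ip (mv s xi) (mv s et) = ∑ b, ∑ c, (∑ j, s b j * s c j) * xi b * et c := by
  unfold ip mv
  simp only [Finset.sum_mul_sum]
  rw [Finset.sum_comm]
  refine Finset.sum_congr rfl fun b _ => ?_
  rw [Finset.sum_comm]
  refine Finset.sum_congr rfl fun c _ => ?_
  rw [Finset.sum_mul, Finset.sum_mul]
  refine Finset.sum_congr rfl fun j _ => ?_
  ring

lemma ip_mv' (s : Fin n → Fin n → ℝ) (x al : Fin n → ℝ) :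
    ip x (mv s al) = ∑ a, (∑ j, x j * s a j) * al a := by
  unfold ip mv
  simp only [Finset.mul_sum, Finset.sum_mul]
  rw [Finset.sum_comm]
  refine Finset.sum_congr rfl fun b _ => Finset.sum_congr rfl fun j _ => ?_
  ring

lemma tri_prod (v al : Fin n → ℝ) (q : Fin n → Fin n → ℝ) (xi et : Fin n → ℝ) :
    tri (fun a b c => v a * q b c) al xi et =
      (∑ a, v a * al a) * ∑ b, ∑ c, q b c * xi b * et c := by
  unfold tri
  rw [Finset.sum_mul]
  refine Finset.sum_congr rfl fun a _ => ?_
  simp only [Finset.mul_sum]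
  refine Finset.sum_congr rfl fun b _ => Finset.sum_congr rfl fun c _ => ?_
  ring

lemma tri_T1 (s : Fin n → Fin n → ℝ) (ds : Fin n → Fin n → Fin n → ℝ) (al xi et : Fin n → ℝ) :
    tri (fun a b c => ∑ j, s b j * ds j a c) al xi et = ∑ j, mv s xi j * bf (ds j) al et := by
  have h : ∀ j, mv s xi j * bf (ds j) al et =
      ∑ a, ∑ b, ∑ c, s b j * ds j a c * al a * xi b * et c := by
    intro j
    unfold mv bf
    rw [mul_comm, Finset.sum_mul]
    refine Finset.sum_congr rfl fun a _ => ?_
    rw [Finset.sum_mul_sum, Finset.sum_comm]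
    refine Finset.sum_congr rfl fun b _ => Finset.sum_congr rfl fun c _ => ?_
    ring
  simp only [h]
  unfold tri
  symm
  rw [Finset.sum_comm]
  refine Finset.sum_congr rfl fun a _ => ?_
  rw [Finset.sum_comm]
  refine Finset.sum_congr rfl fun b _ => ?_
  rw [Finset.sum_comm]
  refine Finset.sum_congr rfl fun c _ => ?_
  rw [Finset.sum_mul, Finset.sum_mul, Finset.sum_mul]

lemma tri_T2 (s : Fin n → Fin n → ℝ) (ds : Fin n → Fin n → Fin n → ℝ) (al xi et : Fin n → ℝ) :
    tri (fun a b c => ∑ j, s c j * ds j a b) al xi et = ∑ j, mv s et j * bf (ds j) al xi := by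
  rw [← tri_T1]
  unfold tri
  refine Finset.sum_congr rfl fun a _ => ?_
  rw [Finset.sum_comm]
  refine Finset.sum_congr rfl fun c _ => Finset.sum_congr rfl fun b _ => ?_
  ring

lemma tri_T3 (s : Fin n → Fin n → ℝ) (ds : Fin n → Fin n → Fin n → ℝ) (al xi et : Fin n → ℝ) :
    tri (fun a b c => ∑ j, s a j * ds j b c) al xi et = ∑ j, mv s al j * bf (ds j) xi et := by
  have h : ∀ j, mv s al j * bf (ds j) xi et =
      ∑ a, ∑ b, ∑ c, s a j * ds j b c * al a * xi b * et c := by
    intro j
    unfold mv bf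
    rw [Finset.sum_mul]
    refine Finset.sum_congr rfl fun a _ => ?_
    simp only [Finset.mul_sum]
    refine Finset.sum_congr rfl fun b _ => Finset.sum_congr rfl fun c _ => ?_
    ring
  simp only [h]
  unfold tri
  symm
  rw [Finset.sum_comm]
  refine Finset.sum_congr rfl fun a _ => ?_
  rw [Finset.sum_comm]
  refine Finset.sum_congr rfl fun b _ => ?_
  rw [Finset.sum_comm]
  refine Finset.sum_congr rfl fun c _ => ?_
  rw [Finset.sum_mul, Finset.sum_mul, Finset.sum_mul]

/-- The Hessian form is `2 u ⟨s ξ, s η⟩` plus the error form. -/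
lemma HG_eq (s : Fin n → Fin n → ℝ) (ds : Fin n → Fin n → Fin n → ℝ) (u : ℝ)
    (x al xi et : Fin n → ℝ) :
    HG s ds (u - ip x al) x al xi et =
      2 * u * ip (mv s xi) (mv s et) + tri (KK s ds x) al xi et := by
  have h1 : tri (KK s ds x) al xi et =
      -2 * tri (fun a b c => x a * ∑ j, s b j * s c j) al xi et
      + 2 * tri (fun a b c => (∑ j, x j * s a j) * s b c) al xi et
      + (tri (fun a b c => ∑ j, s b j * ds j a c) al xi et
        + tri (fun a b c => ∑ j, s c j * ds j a b) al xi et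
        - tri (fun a b c => ∑ j, s a j * ds j b c) al xi et) := by
    rw [← tri_smul, ← tri_smul, ← tri_add, ← tri_add, ← tri_sub, ← tri_add]
    rfl
  rw [h1, tri_prod, tri_prod, ← ip_mv_mv, ← ip_mv', tri_T1, tri_T2, tri_T3]
  have h2 : ∑ b, ∑ c, s b c * xi b * et c = ip (mv s xi) et := sum_mv _ _ _
  have h3 : ∑ a, x a * al a = ip x al := rfl
  rw [h2, h3]
  unfold HG
  simp only [Finset.sum_add_distrib, Finset.sum_sub_distrib]
  ring

end Vale.Agent.P088.HY.H856
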